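import Crest.Agent.Lib.S0066.Defs

/-!
Order and value lemmas on the labels of S0066.
-/

set_option autoImplicit false

namespace Crest.Agent.S0066Lib

variable {h : ℕ}

/-- Class of a row. -/
def rowCls : RowL h → ℕ
  | .pad _ => 0
  | .fr _ _ _ => 1
  | .a _ => 2
  | .tree _ _ => 3

/-- Class of a column. -/
def colCls : ColL h → ℕ
  | .pad _ => 0
  | .fr _ _ _ => 1
  | .tree _ _ => 2
  | .b _ => 3

/-- Staircase level of a row. -/
def rowLev : RowL h → ℕ
  | .pad _ => 0
  | .fr f _ _ => f.val + 1
  | .a _ => 5 * h + 3
  | .tree _ _ => 5 * h + 3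

/-- Staircase level of a column. -/
def colLev : ColL h → ℕ
  | .pad _ => 0
  | .fr f _ _ => f.val + 1
  | .tree _ _ => 5 * h + 3
  | .b _ => 5 * h + 3

/-- Group of a frame row. -/
def rowGrp : RowL h → ℕ
  | .fr _ g _ => g.val
  | _ => 0

/-- Group of a frame column. -/
def colGrp : ColL h → ℕ
  | .fr _ g _ => g.val
  | _ => 0

/-- Letter of a core row. -/
def letR : RowL h → ℕ
  | .tree d _ => d.val + 1
  | _ => 0

/-- Letter of a core column. -/
def letC : ColL h → ℕ
  | .tree d _ => d.val + 1
  | _ => 0

lemma rowCls_mono {r r' : RowL h} (hr : r ≤ r') : rowCls r ≤ rowCls r' := by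
  rcases hr.lt_or_eq with hlt | rfl
  · have := (RowL.lt_def r r').mp hlt
    cases r <;> cases r' <;> simp only [rowKey, k4_lt] at this <;> simp only [rowCls] <;> omega
  · exact le_rfl

lemma colCls_mono {r r' : ColL h} (hr : r ≤ r') : colCls r ≤ colCls r' := by
  rcases hr.lt_or_eq with hlt | rfl
  · have := (ColL.lt_def r r').mp hlt
    cases r <;> cases r' <;> simp only [colKey, k4_lt] at this <;> simp only [colCls] <;> omega
  · exact le_rfl

lemma rowLev_mono {r r' : RowL h} (hr : r ≤ r') : rowLev r ≤ rowLev r' := by
  rcases hr.lt_or_eq with hlt | rfl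
  · have := (RowL.lt_def r r').mp hlt
    cases r <;> cases r' <;> simp only [rowKey, k4_lt] at this <;> simp only [rowLev] <;> omega
  · exact le_rfl

lemma colLev_mono {r r' : ColL h} (hr : r ≤ r') : colLev r ≤ colLev r' := by
  rcases hr.lt_or_eq with hlt | rfl
  · have := (ColL.lt_def r r').mp hlt
    cases r <;> cases r' <;> simp only [colKey, k4_lt] at this <;> simp only [colLev] <;> omega
  · exact le_rfl

lemma rowGrp_mono {r r' : RowL h} (hr : r ≤ r') (hl : rowLev r = rowLev r') (hc : rowCls r = 1) :
    rowGrp r ≤ rowGrp r' := by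
  rcases hr.lt_or_eq with hlt | rfl
  · have := (RowL.lt_def r r').mp hlt
    cases r <;> cases r' <;> simp only [rowKey, k4_lt] at this <;>
      simp only [rowGrp, rowLev, rowCls] at * <;> omega
  · exact le_rfl

lemma colGrp_mono {r r' : ColL h} (hr : r ≤ r') (hl : colLev r = colLev r') (hc : colCls r = 1) :
    colGrp r ≤ colGrp r' := by
  rcases hr.lt_or_eq with hlt | rfl
  · have := (ColL.lt_def r r').mp hlt
    cases r <;> cases r' <;> simp only [colKey, k4_lt] at this <;>
      simp only [colGrp, colLev, colCls] at * <;> omega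
  · exact le_rfl

lemma cell_lev_lt {r : RowL h} {c : ColL h} (hr : rowCls r ≤ 1) (hc : colCls c ≤ 1)
    (hl : rowLev r < colLev c) : cell h r c = true := by
  cases r <;> cases c <;> simp only [rowCls, colCls, rowLev, colLev] at hr hc hl <;>
    first
    | omega
    | rfl
    | (simp only [cell]; rw [if_pos (by omega)])

lemma cell_lev_gt {r : RowL h} {c : ColL h} (hr : rowCls r ≤ 1) (hc : colCls c ≤ 1)
    (hl : colLev c < rowLev r) : cell h r c = false := by
  cases r <;> cases c <;> simp only [rowCls, colCls, rowLev, colLev] at hr hc hl <;>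
    first
    | omega
    | rfl
    | (simp only [cell]; rw [if_neg (by omega), if_pos (by omega)])

/-- A core row against a non-core column with value one gives a selector. -/
lemma cell_core_frame {r : RowL h} {c : ColL h} (hr : 2 ≤ rowCls r) (hc : colCls c ≤ 1)
    (hv : cell h r c = true) :
    ∃ f g ρ, c = ColL.fr f g ρ ∧ colSel h f g (letR r) = true := by
  cases r <;> cases c <;> simp only [rowCls, colCls] at hr hc <;> try omega
  all_goals first
    | exact ⟨_, _, _, rfl, hv⟩
    | exact absurd hv (by simp [cell])

/-- A non-core row against a core column with value zero gives a selector. -/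
lemma cell_frame_core {r : RowL h} {c : ColL h} (hr : rowCls r ≤ 1) (hc : 2 ≤ colCls c)
    (hv : cell h r c = false) :
    ∃ f g ρ, r = RowL.fr f g ρ ∧ rowSel h f g (letC c) = false := by
  cases r <;> cases c <;> simp only [rowCls, colCls] at hr hc <;> try omega
  all_goals first
    | exact ⟨_, _, _, rfl, hv⟩
    | exact absurd hv (by simp [cell])

lemma cell_core_frame' {r : RowL h} {f : Fin (5 * h + 2)} {g : Fin 64} {ρ : Fin (2 ^ h)}
    (hr : 2 ≤ rowCls r) : cell h r (ColL.fr f g ρ) = colSel h f g (letR r) := by
  cases r <;> simp only [rowCls] at hr <;> first | omega | rfl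

lemma cell_frame_core' {c : ColL h} {f : Fin (5 * h + 2)} {g : Fin 64} {ρ : Fin (2 ^ h)}
    (hc : 2 ≤ colCls c) : cell h (RowL.fr f g ρ) c = rowSel h f g (letC c) := by
  cases c <;> simp only [colCls] at hc <;> first | omega | rfl

/-- Selector columns: value one at group 1 means the first row set. -/
lemma colSel_true {f g x : ℕ} (hv : colSel h f g x = true) :
    (g = 1 ∧ ((kindOf h f).R1 h).mem x = true) ∨ (g = 2 ∧ ((kindOf h f).R2 h).mem x = true) := by
  unfold colSel at hv
  split_ifs at hv with h1 h2
  · exact Or.inl ⟨h1, hv⟩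
  · exact Or.inr ⟨h2, hv⟩

/-- Selector rows: value zero at group 1 means the first column set. -/
lemma rowSel_false {f g x : ℕ} (hv : rowSel h f g x = false) :
    (g = 1 ∧ ((kindOf h f).C1 h).mem x = true) ∨ (g = 2 ∧ ((kindOf h f).C2 h).mem x = true) := by
  unfold rowSel at hv
  split_ifs at hv with h1 h2
  · exact Or.inl ⟨h1, by simpa using hv⟩
  · exact Or.inr ⟨h2, by simpa using hv⟩

/-- A core row has value one on at most one selector group of a frame. -/
lemma colSel_unique {f g g' x : ℕ} (h1 : colSel h f g x = true) (h2 : colSel h f g' x = true) :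
    g = g' := by
  rcases colSel_true h1 with ⟨a, b⟩ | ⟨a, b⟩ <;> rcases colSel_true h2 with ⟨c, d⟩ | ⟨c, d⟩
  · omega
  · exact (Kind.R_disj h _ x b d).elim
  · exact (Kind.R_disj h _ x d b).elim
  · omega

/-- A core column has value zero on at most one selector group of a frame. -/
lemma rowSel_unique {f g g' x : ℕ} (h1 : rowSel h f g x = false) (h2 : rowSel h f g' x = false) :
    g = g' := by
  rcases rowSel_false h1 with ⟨a, b⟩ | ⟨a, b⟩ <;> rcases rowSel_false h2 with ⟨c, d⟩ | ⟨c, d⟩
  · omega
  · exact (Kind.C_disj h _ x b d).elim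
  · exact (Kind.C_disj h _ x d b).elim
  · omega

/-- No crossing of the selector column sets on three core rows. -/
lemma no_cross_cols {x y z : ℕ} {f g f' g' : ℕ}
    (h1 : colSel h f g x = true) (h2 : colSel h f g y = true) (h3 : colSel h f g z = false)
    (h4 : colSel h f' g' x = true) (h5 : colSel h f' g' z = true)
    (h6 : colSel h f' g' y = false) : False := by
  have key : ∃ S : Sel, S.mem x = true ∧ S.mem y = true ∧ S.mem z = false := by
    rcases colSel_true h1 with ⟨rfl, _⟩ | ⟨rfl, _⟩
    · exact ⟨_, by simpa [colSel] using h1, by simpa [colSel] using h2, by simpa [colSel] using h3⟩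
    · exact ⟨_, by simpa [colSel] using h1, by simpa [colSel] using h2, by simpa [colSel] using h3⟩
  have key' : ∃ S : Sel, S.mem x = true ∧ S.mem z = true ∧ S.mem y = false := by
    rcases colSel_true h4 with ⟨rfl, _⟩ | ⟨rfl, _⟩
    · exact ⟨_, by simpa [colSel] using h4, by simpa [colSel] using h5, by simpa [colSel] using h6⟩
    · exact ⟨_, by simpa [colSel] using h4, by simpa [colSel] using h5, by simpa [colSel] using h6⟩
  obtain ⟨S, a1, a2, a3⟩ := key
  obtain ⟨S', a4, a5, a6⟩ := key'
  exact Sel.laminar S S' x y z a1 a2 a3 a4 a5 a6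

/-- No crossing of the selector row sets on three core columns. -/
lemma no_cross_rows {x y z : ℕ} {f g f' g' : ℕ}
    (h1 : rowSel h f g x = false) (h2 : rowSel h f g y = false) (h3 : rowSel h f g z = true)
    (h4 : rowSel h f' g' x = false) (h5 : rowSel h f' g' z = false)
    (h6 : rowSel h f' g' y = true) : False := by
  have key : ∃ S : Sel, S.mem x = true ∧ S.mem y = true ∧ S.mem z = false := by
    rcases rowSel_false h1 with ⟨rfl, _⟩ | ⟨rfl, _⟩
    · exact ⟨_, by simpa [rowSel] using h1, by simpa [rowSel] using h2, by simpa [rowSel] using h3⟩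
    · exact ⟨_, by simpa [rowSel] using h1, by simpa [rowSel] using h2, by simpa [rowSel] using h3⟩
  have key' : ∃ S : Sel, S.mem x = true ∧ S.mem z = true ∧ S.mem y = false := by
    rcases rowSel_false h4 with ⟨rfl, _⟩ | ⟨rfl, _⟩
    · exact ⟨_, by simpa [rowSel] using h4, by simpa [rowSel] using h5, by simpa [rowSel] using h6⟩
    · exact ⟨_, by simpa [rowSel] using h4, by simpa [rowSel] using h5, by simpa [rowSel] using h6⟩
  obtain ⟨S, a1, a2, a3⟩ := key
  obtain ⟨S', a4, a5, a6⟩ := key'
  exact Sel.laminar S S' x y z a1 a2 a3 a4 a5 a6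

/-- Order of two tree rows gives weak order of positions. -/
lemma tree_row_pos {d d' : Fin (h + 2)} {T T' : Fin (2 ^ h)}
    (hr : RowL.tree d T < RowL.tree d' T') : pos h d T ≤ pos h d' T' := by
  have := (RowL.lt_def _ _).mp hr
  simp only [rowKey, k4_lt] at this
  omega

lemma tree_col_pos {d d' : Fin (h + 2)} {T T' : Fin (2 ^ h)}
    (hr : ColL.tree d T < ColL.tree d' T') : pos h d T ≤ pos h d' T' := by
  have := (ColL.lt_def _ _).mp hr
  simp only [colKey, k4_lt] at this
  omega

/-- Order of two tree rows of different levels gives strict order of positions. -/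
lemma tree_row_pos_lt {d d' : Fin (h + 2)} {T T' : Fin (2 ^ h)} (hne : d.val ≠ d'.val)
    (hr : RowL.tree d T < RowL.tree d' T') : pos h d T < pos h d' T' := by
  have := tree_row_pos hr
  have h2 := pos_ne h d d' T T' hne (by omega) (by omega)
  omega

lemma tree_col_pos_lt {d d' : Fin (h + 2)} {T T' : Fin (2 ^ h)} (hne : d.val ≠ d'.val)
    (hr : ColL.tree d T < ColL.tree d' T') : pos h d T < pos h d' T' := by
  have := tree_col_pos hr
  have h2 := pos_ne h d d' T T' hne (by omega) (by omega)
  omega

/-- Four core columns do not alternate on two core rows. -/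
lemma core_row_alt {r r' : RowL h} {c1 c2 c3 c4 : ColL h}
    (hr : 2 ≤ rowCls r) (hr' : 2 ≤ rowCls r') (hc1 : 2 ≤ colCls c1)
    (h12 : c1 < c2) (h23 : c2 < c3) (h34 : c3 < c4)
    (v11 : cell h r c1 = true) (v21 : cell h r' c1 = false)
    (v12 : cell h r c2 = false) (v22 : cell h r' c2 = true)
    (v13 : cell h r c3 = true) (v23 : cell h r' c3 = false)
    (v14 : cell h r c4 = false) (v24 : cell h r' c4 = true) : False := by
  have hb : ∀ {c c' : ColL h} {ρ : Fin (2 ^ h)}, c = ColL.b ρ → c < c' → ∃ ρ', c' = ColL.b ρ' := by
    intro c c' ρ hc hlt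
    subst hc
    have := colCls_mono hlt.le
    cases c' <;> simp only [colCls] at this <;> first | omega | exact ⟨_, rfl⟩
  -- all four columns are core
  have hc2 : 2 ≤ colCls c2 := hc1.trans (colCls_mono h12.le)
  have hc3 : 2 ≤ colCls c3 := hc2.trans (colCls_mono h23.le)
  have hc4 : 2 ≤ colCls c4 := hc3.trans (colCls_mono h34.le)
  cases r with
  | pad _ => simp [rowCls] at hr
  | fr _ _ _ => simp [rowCls] at hr
  | a ρ =>
    cases c1 with
    | pad _ => simp [colCls] at hc1
    | fr _ _ _ => simp [colCls] at hc1
    | tree _ _ => simp [cell] at v11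
    | b σ =>
      obtain ⟨σ', rfl⟩ := hb rfl h12
      simp [cell] at v12
  | tree d T =>
    cases r' with
    | pad _ => simp [rowCls] at hr'
    | fr _ _ _ => simp [rowCls] at hr'
    | a ρ =>
      cases c2 with
      | pad _ => simp [colCls] at hc2
      | fr _ _ _ => simp [colCls] at hc2
      | tree _ _ => simp [cell] at v22
      | b σ =>
        obtain ⟨σ', rfl⟩ := hb rfl h23
        simp [cell] at v13
    | tree d' T' =>
      cases c1 with
      | pad _ => simp [colCls] at hc1
      | fr _ _ _ => simp [colCls] at hc1
      | b σ => simp [cell] at v11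
      | tree e1 S1 =>
        cases c2 with
        | pad _ => simp [colCls] at hc2
        | fr _ _ _ => simp [colCls] at hc2
        | b σ => simp [cell] at v22
        | tree e2 S2 =>
          cases c3 with
          | pad _ => simp [colCls] at hc3
          | fr _ _ _ => simp [colCls] at hc3
          | b σ => simp [cell] at v13
          | tree e3 S3 =>
            cases c4 with
            | pad _ => simp [colCls] at hc4
            | fr _ _ _ => simp [colCls] at hc4
            | b σ => simp [cell] at v24
            | tree e4 S4 =>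
              exact tree_alternate (by omega) (by omega) (by omega) (by omega) (by omega)
                (by omega) T.isLt T'.isLt (tree_col_pos h12) (tree_col_pos h23) (tree_col_pos h34)
                v11 v21 v12 v22 v13 v23 v14 v24

/-- Four core rows do not alternate on two core columns. -/
lemma core_col_alt {c c' : ColL h} {r1 r2 r3 r4 : RowL h}
    (hc : 2 ≤ colCls c) (hc' : c < c') (hr1 : 2 ≤ rowCls r1)
    (h12 : r1 < r2) (h23 : r2 < r3) (h34 : r3 < r4)
    (v11 : cell h r1 c = true) (v12 : cell h r1 c' = false)
    (v21 : cell h r2 c = false) (v22 : cell h r2 c' = true)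
    (v31 : cell h r3 c = true) (v32 : cell h r3 c' = false)
    (v41 : cell h r4 c = false) (v42 : cell h r4 c' = true) : False := by
  have hr2 : 2 ≤ rowCls r2 := hr1.trans (rowCls_mono h12.le)
  have hr3 : 2 ≤ rowCls r3 := hr2.trans (rowCls_mono h23.le)
  have hr4 : 2 ≤ rowCls r4 := hr3.trans (rowCls_mono h34.le)
  have hc'2 : 2 ≤ colCls c' := hc.trans (colCls_mono hc'.le)
  cases c with
  | pad _ => simp [colCls] at hc
  | fr _ _ _ => simp [colCls] at hc
  | b σ =>
    -- then `c'` is also a `b` line
    have : ∃ ρ', c' = ColL.b ρ' := by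
      have := colCls_mono hc'.le
      cases c' <;> simp only [colCls] at this <;> first | omega | exact ⟨_, rfl⟩
    obtain ⟨ρ', rfl⟩ := this
    cases r1 with
    | pad _ => simp [rowCls] at hr1
    | fr _ _ _ => simp [rowCls] at hr1
    | a _ => simp [cell] at v12
    | tree _ _ => simp [cell] at v11
  | tree e S =>
    cases c' with
    | pad _ => simp [colCls] at hc'2
    | fr _ _ _ => simp [colCls] at hc'2
    | b σ =>
      -- `r2` must be an `a` line, hence so is `r1`
      cases r2 with
      | pad _ => simp [rowCls] at hr2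
      | fr _ _ _ => simp [rowCls] at hr2
      | tree _ _ => simp [cell] at v22
      | a ρ =>
        have := rowCls_mono h12.le
        cases r1 with
        | pad _ => simp [rowCls] at hr1
        | fr _ _ _ => simp [rowCls] at hr1
        | a _ => simp [cell] at v11
        | tree _ _ => simp [rowCls] at this
    | tree e' S' =>
      cases r1 with
      | pad _ => simp [rowCls] at hr1
      | fr _ _ _ => simp [rowCls] at hr1
      | a _ => simp [cell] at v11
      | tree d1 T1 =>
        cases r2 with
        | pad _ => simp [rowCls] at hr2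
        | fr _ _ _ => simp [rowCls] at hr2
        | a _ => simp [cell] at v22
        | tree d2 T2 =>
          cases r3 with
          | pad _ => simp [rowCls] at hr3
          | fr _ _ _ => simp [rowCls] at hr3
          | a _ => simp [cell] at v31
          | tree d3 T3 =>
            cases r4 with
            | pad _ => simp [rowCls] at hr4
            | fr _ _ _ => simp [rowCls] at hr4
            | a _ => simp [cell] at v42
            | tree d4 T4 =>
              simp only [cell] at v11 v12 v21 v22 v31 v32 v41 v42
              rw [treeM_comm] at v11 v12 v21 v22 v31 v32 v41 v42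
              exact tree_alternate (by omega) (by omega) (by omega) (by omega) (by omega)
                (by omega) S.isLt S'.isLt (tree_row_pos h12) (tree_row_pos h23) (tree_row_pos h34)
                v11 v12 v21 v22 v31 v32 v41 v42

end Crest.Agent.S0066Lib
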