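import Crest.Agent.Lib.S0066.Basic

/-!
Classification of the copies of `patH` in the host of S0066.
-/

set_option autoImplicit false

namespace Crest.Agent.S0066Lib

variable {h : ℕ}

lemma row_of_lev {r : RowL h} {f : Fin (5 * h + 2)} (hc : rowCls r ≤ 1)
    (hl : rowLev r = f.val + 1) : ∃ g ρ, r = RowL.fr f g ρ := by
  cases r with
  | pad _ => simp [rowLev] at hl
  | fr f' g ρ =>
    simp only [rowLev] at hl
    have : f' = f := Fin.ext (by omega)
    exact ⟨g, ρ, by rw [this]⟩
  | a _ => simp [rowCls] at hc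
  | tree _ _ => simp [rowCls] at hc

lemma col_of_lev {r : ColL h} {f : Fin (5 * h + 2)} (hc : colCls r ≤ 1)
    (hl : colLev r = f.val + 1) : ∃ g ρ, r = ColL.fr f g ρ := by
  cases r with
  | pad _ => simp [colLev] at hl
  | fr f' g ρ =>
    simp only [colLev] at hl
    have : f' = f := Fin.ext (by omega)
    exact ⟨g, ρ, by rw [this]⟩
  | b _ => simp [colCls] at hc
  | tree _ _ => simp [colCls] at hc

lemma core_row_letter {r : RowL h} (hr : 2 ≤ rowCls r) (hl : letR r ≠ 0) :
    ∃ d T, r = RowL.tree d T ∧ letR r = d.val + 1 := by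
  cases r with
  | pad _ => simp [rowCls] at hr
  | fr _ _ _ => simp [rowCls] at hr
  | a _ => simp [letR] at hl
  | tree d T => exact ⟨d, T, rfl, rfl⟩

lemma core_col_letter {r : ColL h} (hr : 2 ≤ colCls r) (hl : letC r ≠ 0) :
    ∃ d T, r = ColL.tree d T ∧ letC r = d.val + 1 := by
  cases r with
  | pad _ => simp [colCls] at hr
  | fr _ _ _ => simp [colCls] at hr
  | b _ => simp [letC] at hl
  | tree d T => exact ⟨d, T, rfl, rfl⟩

lemma left_case {t : ℕ} {d1 d2 e1 e2 : Fin (h + 2)} {T1 T2 S1 S2 : Fin (2 ^ h)}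
    (hd2 : d2.val = t) (he2 : e2.val = t) (htd : t < d1.val) (hte : t < e1.val)
    (hne : d1.val ≠ e1.val) (hmin : min d1.val e1.val = t + 1)
    (hy : RowL.tree d1 T1 < RowL.tree d2 T2) (hx : ColL.tree e1 S1 < ColL.tree e2 S2)
    (v12 : treeM h d1 T1 e2 S2 = true) (v21 : treeM h d2 T2 e1 S1 = true) :
    treeM h d1 T1 e1 S1 = true := by
  have py := tree_row_pos_lt (by omega) hy
  have px := tree_col_pos_lt (by omega) hx
  rw [hd2] at py v21
  rw [he2] at px v12
  exact left_contra htd (by omega) hte (by omega) hne hmin v12 v21 py px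

lemma right_case {t : ℕ} {d1 d2 e1 e2 : Fin (h + 2)} {T1 T2 S1 S2 : Fin (2 ^ h)}
    (hd1 : d1.val = t) (he1 : e1.val = t) (htd : t < d2.val) (hte : t < e2.val)
    (hne : d2.val ≠ e2.val) (hmin : min d2.val e2.val = t + 1)
    (hy : RowL.tree d1 T1 < RowL.tree d2 T2) (hx : ColL.tree e1 S1 < ColL.tree e2 S2)
    (v12 : treeM h d1 T1 e2 S2 = true) (v21 : treeM h d2 T2 e1 S1 = true) :
    treeM h d2 T2 e2 S2 = true := by
  have py := tree_row_pos_lt (by omega) hy
  have px := tree_col_pos_lt (by omega) hx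
  rw [hd1] at py v12
  rw [he1] at px v21
  exact right_contra htd (by omega) hte (by omega) hne hmin v12 v21 py px

/-- The core copies: only the frame `C`, only one leaf. -/
theorem no_H0 (k : Kind) (y1 y2 : RowL h) (x1 x2 : ColL h)
    (hy1 : 2 ≤ rowCls y1) (hy : y1 < y2) (hx1 : 2 ≤ colCls x1) (hx : x1 < x2)
    (m1 : (k.R1 h).mem (letR y1) = true) (m2 : (k.R2 h).mem (letR y2) = true)
    (m3 : (k.C1 h).mem (letC x1) = true) (m4 : (k.C2 h).mem (letC x2) = true)
    (v11 : cell h y1 x1 = false) (v12 : cell h y1 x2 = true)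
    (v21 : cell h y2 x1 = true) (v22 : cell h y2 x2 = false) :
    ∃ T : Fin (2 ^ h), y1 = RowL.tree ⟨h, by omega⟩ T ∧ y2 = RowL.tree ⟨h + 1, by omega⟩ T ∧
      x1 = ColL.tree ⟨h, by omega⟩ T ∧ x2 = ColL.tree ⟨h + 1, by omega⟩ T := by
  have hy2 : 2 ≤ rowCls y2 := hy1.trans (rowCls_mono hy.le)
  have hx2 : 2 ≤ colCls x2 := hx1.trans (colCls_mono hx.le)
  cases k with
  | W1 t =>
    simp only [Kind.R1, Kind.R2, Kind.C1, Kind.C2, Sel.mem_sing, Sel.mem_suff] at m1 m2 m3 m4
    obtain ⟨d1, T1, rfl, l1⟩ := core_row_letter hy1 (by omega)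
    obtain ⟨d2, T2, rfl, l2⟩ := core_row_letter hy2 (by omega)
    obtain ⟨e1, S1, rfl, l3⟩ := core_col_letter hx1 (by omega)
    obtain ⟨e2, S2, rfl, l4⟩ := core_col_letter hx2 (by omega)
    have := left_case (t := t) (by omega) (by omega) (by omega) (by omega) (by omega)
      (by omega) hy hx v12 v21
    simp only [cell] at v11
    rw [this] at v11
    exact absurd v11 (by simp)
  | W2 t =>
    simp only [Kind.R1, Kind.R2, Kind.C1, Kind.C2, Sel.mem_sing, Sel.mem_suff] at m1 m2 m3 m4
    obtain ⟨d1, T1, rfl, l1⟩ := core_row_letter hy1 (by omega)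
    obtain ⟨d2, T2, rfl, l2⟩ := core_row_letter hy2 (by omega)
    obtain ⟨e1, S1, rfl, l3⟩ := core_col_letter hx1 (by omega)
    obtain ⟨e2, S2, rfl, l4⟩ := core_col_letter hx2 (by omega)
    have := right_case (t := t) (by omega) (by omega) (by omega) (by omega) (by omega)
      (by omega) hy hx v12 v21
    simp only [cell] at v22
    rw [this] at v22
    exact absurd v22 (by simp)
  | W3 t =>
    simp only [Kind.R1, Kind.R2, Kind.C1, Kind.C2, Sel.mem_sing, Sel.mem_suff] at m1 m2 m3 m4
    obtain ⟨d1, T1, rfl, l1⟩ := core_row_letter hy1 (by omega)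
    obtain ⟨d2, T2, rfl, l2⟩ := core_row_letter hy2 (by omega)
    obtain ⟨e1, S1, rfl, l3⟩ := core_col_letter hx1 (by omega)
    obtain ⟨e2, S2, rfl, l4⟩ := core_col_letter hx2 (by omega)
    have := left_case (t := t) (by omega) (by omega) (by omega) (by omega) (by omega)
      (by omega) hy hx v12 v21
    simp only [cell] at v11
    rw [this] at v11
    exact absurd v11 (by simp)
  | W4 t =>
    simp only [Kind.R1, Kind.R2, Kind.C1, Kind.C2, Sel.mem_sing, Sel.mem_suff] at m1 m2 m3 m4
    obtain ⟨d1, T1, rfl, l1⟩ := core_row_letter hy1 (by omega)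
    obtain ⟨d2, T2, rfl, l2⟩ := core_row_letter hy2 (by omega)
    obtain ⟨e1, S1, rfl, l3⟩ := core_col_letter hx1 (by omega)
    obtain ⟨e2, S2, rfl, l4⟩ := core_col_letter hx2 (by omega)
    have := right_case (t := t) (by omega) (by omega) (by omega) (by omega) (by omega)
      (by omega) hy hx v12 v21
    simp only [cell] at v22
    rw [this] at v22
    exact absurd v22 (by simp)
  | Z t =>
    simp only [Kind.R1, Kind.R2, Kind.C1, Kind.C2, Sel.mem_sing, Sel.mem_suff] at m1 m2 m3 m4
    obtain ⟨d2, T2, rfl, l2⟩ := core_row_letter hy2 (by omega)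
    obtain ⟨e1, S1, rfl, l3⟩ := core_col_letter hx1 (by omega)
    simp only [cell] at v21
    have := (treeM_eq_true.mp v21).1
    omega
  | C =>
    simp only [Kind.R1, Kind.R2, Kind.C1, Kind.C2, Sel.mem_sing, Sel.mem_suff] at m1 m2 m3 m4
    obtain ⟨d1, T1, rfl, l1⟩ := core_row_letter hy1 (by omega)
    obtain ⟨d2, T2, rfl, l2⟩ := core_row_letter hy2 (by omega)
    obtain ⟨e1, S1, rfl, l3⟩ := core_col_letter hx1 (by omega)
    obtain ⟨e2, S2, rfl, l4⟩ := core_col_letter hx2 (by omega)
    have hd1 : d1.val = h := by omega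
    have hd2 : d2.val = h + 1 := by omega
    have he1 : e1.val = h := by omega
    have he2 : e2.val = h + 1 := by omega
    have py := tree_row_pos_lt (by omega) hy
    have px := tree_col_pos_lt (by omega) hx
    simp only [cell] at v12 v21
    rw [hd1, he2] at v12
    rw [hd2, he1] at v21
    rw [hd1, hd2, pos_last, pos_top] at py
    rw [he1, he2, pos_last, pos_top] at px
    have e12 := (treeM_eq_true.mp v12).2
    have e21 := (treeM_eq_true.mp v21).2
    rw [min_eq_left (by omega), pre_last, pre_last] at e12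
    rw [min_eq_right (by omega), pre_last, pre_last] at e21
    have t12 : T1.val = T2.val := by omega
    refine ⟨T1, ?_, ?_, ?_, ?_⟩
    · congr 1
      exact Fin.ext hd1
    · congr 1
      · exact Fin.ext hd2
      · exact Fin.ext t12.symm
    · congr 1
      · exact Fin.ext he1
      · exact Fin.ext (by omega)
    · congr 1
      · exact Fin.ext he2
      · exact Fin.ext (by omega)

/-- Distinctness of the rows of the frame pattern. -/
lemma rows_distinct : ∀ i i' : Fin 64, i < i' → ∃ j : Fin 64, pNat i j ≠ pNat i' j := by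
  decide +kernel

/-- Distinctness of the columns of the frame pattern. -/
lemma cols_distinct : ∀ j j' : Fin 64, j < j' → ∃ i : Fin 64, pNat i j ≠ pNat i j' := by
  decide +kernel

section copy

variable {φ : Fin 66 → RowL h} {ψ : Fin 66 → ColL h}

lemma row61_noncore (hφ : StrictMono φ) (hψ : StrictMono ψ)
    (hc : ∀ i j, cell h (φ i) (ψ j) = patH i j) : rowCls (φ 61) ≤ 1 := by
  by_contra hcon
  have c61 : 2 ≤ rowCls (φ 61) := by omega
  have c62 : 2 ≤ rowCls (φ 62) := c61.trans (rowCls_mono (hφ (by decide)).le)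
  have c63 : 2 ≤ rowCls (φ 63) := c62.trans (rowCls_mono (hφ (by decide)).le)
  have h56 : 2 ≤ colCls (ψ 56) := by
    by_contra hn
    have n56 : colCls (ψ 56) ≤ 1 := by omega
    have n55 : colCls (ψ 55) ≤ 1 := (colCls_mono (hψ (by decide)).le).trans n56
    obtain ⟨f, g, ρ, e55, s1⟩ := cell_core_frame c61 n55 (hc 61 55)
    obtain ⟨f', g', ρ', e56, s2⟩ := cell_core_frame c61 n56 (hc 61 56)
    have a1 : colSel h f g (letR (φ 62)) = true := by
      rw [← cell_core_frame' c62, ← e55]; exact hc 62 55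
    have a2 : colSel h f g (letR (φ 63)) = false := by
      rw [← cell_core_frame' c63, ← e55]; exact hc 63 55
    have a3 : colSel h f' g' (letR (φ 63)) = true := by
      rw [← cell_core_frame' c63, ← e56]; exact hc 63 56
    have a4 : colSel h f' g' (letR (φ 62)) = false := by
      rw [← cell_core_frame' c62, ← e56]; exact hc 62 56
    exact no_cross_cols s1 a1 a2 s2 a3 a4
  have h57 : 2 ≤ colCls (ψ 57) := h56.trans (colCls_mono (hψ (by decide)).le)
  exact core_row_alt c61 c62 h57 (hψ (by decide)) (hψ (by decide)) (hψ (by decide))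
    (hc 61 57) (hc 62 57) (hc 61 58) (hc 62 58) (hc 61 59) (hc 62 59) (hc 61 60) (hc 62 60)

lemma col61_noncore (hφ : StrictMono φ) (hψ : StrictMono ψ)
    (hc : ∀ i j, cell h (φ i) (ψ j) = patH i j) : colCls (ψ 61) ≤ 1 := by
  by_contra hcon
  have c61 : 2 ≤ colCls (ψ 61) := by omega
  have c62 : 2 ≤ colCls (ψ 62) := c61.trans (colCls_mono (hψ (by decide)).le)
  have c63 : 2 ≤ colCls (ψ 63) := c62.trans (colCls_mono (hψ (by decide)).le)
  have h56 : 2 ≤ rowCls (φ 56) := by
    by_contra hn
    have n56 : rowCls (φ 56) ≤ 1 := by omega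
    have n55 : rowCls (φ 55) ≤ 1 := (rowCls_mono (hφ (by decide)).le).trans n56
    obtain ⟨f, g, ρ, e55, s1⟩ := cell_frame_core n55 c61 (hc 55 61)
    obtain ⟨f', g', ρ', e56, s2⟩ := cell_frame_core n56 c61 (hc 56 61)
    have a1 : rowSel h f g (letC (ψ 62)) = false := by
      rw [← cell_frame_core' c62, ← e55]; exact hc 55 62
    have a2 : rowSel h f g (letC (ψ 63)) = true := by
      rw [← cell_frame_core' c63, ← e55]; exact hc 55 63
    have a3 : rowSel h f' g' (letC (ψ 63)) = false := by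
      rw [← cell_frame_core' c63, ← e56]; exact hc 56 63
    have a4 : rowSel h f' g' (letC (ψ 62)) = true := by
      rw [← cell_frame_core' c62, ← e56]; exact hc 56 62
    exact no_cross_rows s1 a1 a2 s2 a3 a4
  have h57 : 2 ≤ rowCls (φ 57) := h56.trans (rowCls_mono (hφ (by decide)).le)
  exact core_col_alt c61 (hψ (by decide)) h57 (hφ (by decide)) (hφ (by decide)) (hφ (by decide))
    (hc 57 61) (hc 57 62) (hc 58 61) (hc 58 62) (hc 59 61) (hc 59 62) (hc 60 61) (hc 60 62)

/-- The tie: the first 62 rows and columns lie in a single frame. -/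
lemma tie (hφ : StrictMono φ) (hψ : StrictMono ψ)
    (hc : ∀ i j, cell h (φ i) (ψ j) = patH i j) :
    ∃ f : Fin (5 * h + 2), (∀ i : Fin 66, i ≤ 61 → ∃ g ρ, φ i = RowL.fr f g ρ) ∧
      (∀ j : Fin 66, j ≤ 61 → ∃ g ρ, ψ j = ColL.fr f g ρ) := by
  have r61 := row61_noncore hφ hψ hc
  have c61 := col61_noncore hφ hψ hc
  have rn : ∀ i : Fin 66, i ≤ 61 → rowCls (φ i) ≤ 1 :=
    fun i hi => (rowCls_mono (hφ.monotone hi)).trans r61
  have cn : ∀ j : Fin 66, j ≤ 61 → colCls (ψ j) ≤ 1 :=
    fun j hj => (colCls_mono (hψ.monotone hj)).trans c61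
  have A : colLev (ψ 61) ≤ rowLev (φ 0) := by
    by_contra hcon
    have := cell_lev_lt (rn 0 (by decide)) c61 (by omega : rowLev (φ 0) < colLev (ψ 61))
    rw [hc 0 61] at this
    exact absurd this (by decide)
  have B : rowLev (φ 61) ≤ colLev (ψ 0) := by
    by_contra hcon
    have := cell_lev_gt r61 (cn 0 (by decide)) (by omega : colLev (ψ 0) < rowLev (φ 61))
    rw [hc 61 0] at this
    exact absurd this (by decide)
  have rl : ∀ i : Fin 66, i ≤ 61 → rowLev (φ 0) ≤ rowLev (φ i) ∧ rowLev (φ i) ≤ rowLev (φ 61) :=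
    fun i hi => ⟨rowLev_mono (hφ.monotone (Fin.zero_le _)), rowLev_mono (hφ.monotone hi)⟩
  have cl : ∀ j : Fin 66, j ≤ 61 → colLev (ψ 0) ≤ colLev (ψ j) ∧ colLev (ψ j) ≤ colLev (ψ 61) :=
    fun j hj => ⟨colLev_mono (hψ.monotone (Fin.zero_le _)), colLev_mono (hψ.monotone hj)⟩
  have a0 := rl 61 le_rfl
  have b0 := cl 61 le_rfl
  -- the common level is not zero
  have hcell : cell h (φ 61) (ψ 0) = true := hc 61 0
  have hL : rowLev (φ 0) ≠ 0 := by
    intro h0
    have e3 : rowLev (φ 61) = 0 := by omega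
    have e4 : colLev (ψ 0) = 0 := by omega
    cases hr1 : φ 61 with
    | pad _ =>
      cases hc0 : ψ 0 with
      | pad _ =>
        rw [hr1, hc0] at hcell
        simp [cell] at hcell
      | fr _ _ _ => rw [hc0] at e4; simp [colLev] at e4
      | tree _ _ => rw [hc0] at e4; simp [colLev] at e4
      | b _ => rw [hc0] at e4; simp [colLev] at e4
    | fr _ _ _ => rw [hr1] at e3; simp [rowLev] at e3
    | a _ => rw [hr1] at e3; simp [rowLev] at e3
    | tree _ _ => rw [hr1] at e3; simp [rowLev] at e3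
  obtain ⟨f, hf⟩ : ∃ f : Fin (5 * h + 2), rowLev (φ 0) = f.val + 1 := by
    have hn := rn 0 (by decide)
    cases hr0 : φ 0 with
    | pad _ => rw [hr0] at hL; simp [rowLev] at hL
    | fr f _ _ => exact ⟨f, rfl⟩
    | a _ => rw [hr0] at hn; simp [rowCls] at hn
    | tree _ _ => rw [hr0] at hn; simp [rowCls] at hn
  refine ⟨f, ?_, ?_⟩
  · intro i hi
    have := rl i hi
    exact row_of_lev (rn i hi) (by omega)
  · intro j hj
    have := cl j hj
    exact col_of_lev (cn j hj) (by omega)

/-- A later row with two ones on separated columns of the frame is in the frame. -/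
lemma later_row_in_frame (hφ : StrictMono φ) (hψ : StrictMono ψ)
    (hc : ∀ i j, cell h (φ i) (ψ j) = patH i j) {f : Fin (5 * h + 2)}
    (hr : ∀ i : Fin 66, i ≤ 61 → ∃ g ρ, φ i = RowL.fr f g ρ)
    (hcc : ∀ j : Fin 66, j ≤ 61 → ∃ g ρ, ψ j = ColL.fr f g ρ)
    {i j1 j2 i0 : Fin 66} (hi : 61 ≤ i) (hj1 : j1 ≤ 61) (hj2 : j2 ≤ 61) (hi0 : i0 ≤ 61)
    (v1 : patH i j1 = true) (v2 : patH i j2 = true) (vs : patH i0 j1 ≠ patH i0 j2) :
    ∃ g ρ, φ i = RowL.fr f g ρ := by
  obtain ⟨g1, ρ1, e1⟩ := hcc j1 hj1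
  obtain ⟨g2, ρ2, e2⟩ := hcc j2 hj2
  obtain ⟨g0, ρ0, e0⟩ := hr i0 hi0
  obtain ⟨g61, ρ61, e61⟩ := hr 61 le_rfl
  have hlev : f.val + 1 ≤ rowLev (φ i) := by
    have := rowLev_mono (hφ.monotone hi)
    rw [e61] at this
    simpa [rowLev] using this
  by_cases hcore : 2 ≤ rowCls (φ i)
  · exfalso
    have s1 := hc i j1
    have s2 := hc i j2
    rw [e1, cell_core_frame' hcore, v1] at s1
    rw [e2, cell_core_frame' hcore, v2] at s2
    have hg : g1 = g2 := Fin.ext (colSel_unique s1 s2)
    apply vs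
    rw [← hc i0 j1, ← hc i0 j2, e0, e1, e2, hg]
    simp only [cell]
  · have hn : rowCls (φ i) ≤ 1 := by omega
    by_cases hl : rowLev (φ i) = f.val + 1
    · exact row_of_lev hn hl
    · exfalso
      have := cell_lev_gt hn (c := ψ j1) (by rw [e1]; simp [colCls])
        (by rw [e1]; simp only [colLev]; omega)
      rw [hc i j1, v1] at this
      exact absurd this (by simp)

/-- A later column with two zeros on separated rows of the frame is in the frame. -/
lemma later_col_in_frame (hφ : StrictMono φ) (hψ : StrictMono ψ)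
    (hc : ∀ i j, cell h (φ i) (ψ j) = patH i j) {f : Fin (5 * h + 2)}
    (hr : ∀ i : Fin 66, i ≤ 61 → ∃ g ρ, φ i = RowL.fr f g ρ)
    (hcc : ∀ j : Fin 66, j ≤ 61 → ∃ g ρ, ψ j = ColL.fr f g ρ)
    {j i1 i2 j0 : Fin 66} (hj : 61 ≤ j) (hi1 : i1 ≤ 61) (hi2 : i2 ≤ 61) (hj0 : j0 ≤ 61)
    (v1 : patH i1 j = false) (v2 : patH i2 j = false) (vs : patH i1 j0 ≠ patH i2 j0) :
    ∃ g ρ, ψ j = ColL.fr f g ρ := by
  obtain ⟨g1, ρ1, e1⟩ := hr i1 hi1
  obtain ⟨g2, ρ2, e2⟩ := hr i2 hi2
  obtain ⟨g0, ρ0, e0⟩ := hcc j0 hj0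
  obtain ⟨g61, ρ61, e61⟩ := hcc 61 le_rfl
  have hlev : f.val + 1 ≤ colLev (ψ j) := by
    have := colLev_mono (hψ.monotone hj)
    rw [e61] at this
    simpa [colLev] using this
  by_cases hcore : 2 ≤ colCls (ψ j)
  · exfalso
    have s1 := hc i1 j
    have s2 := hc i2 j
    rw [e1, cell_frame_core' hcore, v1] at s1
    rw [e2, cell_frame_core' hcore, v2] at s2
    have hg : g1 = g2 := Fin.ext (rowSel_unique s1 s2)
    apply vs
    rw [← hc i1 j0, ← hc i2 j0, e0, e1, e2, hg]
    simp only [cell]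
  · have hn : colCls (ψ j) ≤ 1 := by omega
    by_cases hl : colLev (ψ j) = f.val + 1
    · exact col_of_lev hn hl
    · exfalso
      have := cell_lev_lt (r := φ i1) (by rw [e1]; simp [rowCls]) hn
        (by rw [e1]; simp only [rowLev]; omega)
      rw [hc i1 j, v1] at this
      exact absurd this (by simp)

/-- Embedding of the indices of the frame pattern. -/
def iota (i : Fin 64) : Fin 66 := Fin.castLE (by norm_num) i

lemma iota_strictMono : StrictMono iota := fun _ _ hab => by simpa [iota] using hab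

lemma iota_val (i : Fin 64) : (iota i).val = i.val := rfl

/-- A strictly increasing self-map of `Fin 64` is the identity. -/
lemma strictMono_self_eq {g : Fin 64 → Fin 64} (hg : StrictMono g) (i : Fin 64) : g i = i :=
  le_antisymm hg.apply_le hg.le_apply

/-- The frame part of a copy is the identity of one frame. -/
theorem frame_part (hφ : StrictMono φ) (hψ : StrictMono ψ)
    (hc : ∀ i j, cell h (φ i) (ψ j) = patH i j) :
    ∃ f : Fin (5 * h + 2),
      (∀ i : Fin 64, ∃ ρ, φ (iota i) = RowL.fr f i ρ) ∧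
      (∀ j : Fin 64, ∃ ρ, ψ (iota j) = ColL.fr f j ρ) := by
  obtain ⟨f, hr, hcc⟩ := tie hφ hψ hc
  have r62 := later_row_in_frame hφ hψ hc hr hcc (i := 62) (j1 := 55) (j2 := 58) (i0 := 61)
    (by decide) (by decide) (by decide) le_rfl (by decide) (by decide) (by decide)
  have r63 := later_row_in_frame hφ hψ hc hr hcc (i := 63) (j1 := 56) (j2 := 57) (i0 := 56)
    (by decide) (by decide) (by decide) (by decide) (by decide) (by decide) (by decide)
  have c62 := later_col_in_frame hφ hψ hc hr hcc (j := 62) (i1 := 55) (i2 := 57) (j0 := 56)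
    (by decide) (by decide) (by decide) (by decide) (by decide) (by decide) (by decide)
  have c63 := later_col_in_frame hφ hψ hc hr hcc (j := 63) (i1 := 56) (i2 := 57) (j0 := 57)
    (by decide) (by decide) (by decide) (by decide) (by decide) (by decide) (by decide)
  have hR : ∀ i : Fin 64, ∃ g ρ, φ (iota i) = RowL.fr f g ρ := by
    intro i
    by_cases h61 : i.val ≤ 61
    · exact hr _ (by rw [Fin.le_def]; simpa [iota_val] using h61)
    · by_cases h62 : i.val = 62
      · have : iota i = 62 := Fin.ext (by rw [iota_val, h62]; rfl)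
        rw [this]; exact r62
      · have : iota i = 63 := Fin.ext (by rw [iota_val]; show i.val = 63; omega)
        rw [this]; exact r63
  have hC : ∀ j : Fin 64, ∃ g ρ, ψ (iota j) = ColL.fr f g ρ := by
    intro i
    by_cases h61 : i.val ≤ 61
    · exact hcc _ (by rw [Fin.le_def]; simpa [iota_val] using h61)
    · by_cases h62 : i.val = 62
      · have : iota i = 62 := Fin.ext (by rw [iota_val, h62]; rfl)
        rw [this]; exact c62
      · have : iota i = 63 := Fin.ext (by rw [iota_val]; show i.val = 63; omega)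
        rw [this]; exact c63
  choose gr ρr er using hR
  choose gc ρc ec using hC
  have hval : ∀ i j : Fin 64, pNat (gr i) (gc j) = pNat i j := by
    intro i j
    have := hc (iota i) (iota j)
    rw [er, ec] at this
    simp only [cell, lt_self_iff_false, if_false] at this
    rw [this]
    have hi := i.isLt
    have hj := j.isLt
    simp [patH, hNat, iota_val, hi, hj]
  have hgrm : ∀ i i' : Fin 64, i < i' → gr i ≤ gr i' := by
    intro i i' hlt
    have := rowGrp_mono (hφ (iota_strictMono hlt)).le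
      (by rw [er, er]; rfl) (by rw [er]; rfl)
    rw [er, er] at this
    exact this
  have hgcm : ∀ i i' : Fin 64, i < i' → gc i ≤ gc i' := by
    intro i i' hlt
    have := colGrp_mono (hψ (iota_strictMono hlt)).le
      (by rw [ec, ec]; rfl) (by rw [ec]; rfl)
    rw [ec, ec] at this
    exact this
  have hgr : StrictMono gr := by
    intro i i' hlt
    refine lt_of_le_of_ne (hgrm i i' hlt) ?_
    intro he
    obtain ⟨j, hj⟩ := rows_distinct i i' hlt
    apply hj
    rw [← hval i j, ← hval i' j, he]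
  have hgc : StrictMono gc := by
    intro i i' hlt
    refine lt_of_le_of_ne (hgcm i i' hlt) ?_
    intro he
    obtain ⟨j, hj⟩ := cols_distinct i i' hlt
    apply hj
    rw [← hval j i, ← hval j i', he]
  refine ⟨f, fun i => ⟨ρr i, ?_⟩, fun j => ⟨ρc j, ?_⟩⟩
  · rw [er, strictMono_self_eq hgr]
  · rw [ec, strictMono_self_eq hgc]

/-- The classification of the copies. -/
theorem classify (hφ : StrictMono φ) (hψ : StrictMono ψ)
    (hc : ∀ i j, cell h (φ i) (ψ j) = patH i j) :
    ∃ T : Fin (2 ^ h), φ 64 = RowL.tree ⟨h, by omega⟩ T ∧ φ 65 = RowL.tree ⟨h + 1, by omega⟩ T ∧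
      ψ 64 = ColL.tree ⟨h, by omega⟩ T ∧ ψ 65 = ColL.tree ⟨h + 1, by omega⟩ T := by
  obtain ⟨f, hR, hC⟩ := frame_part hφ hψ hc
  have hι : ∀ n (hn : n < 64), iota ⟨n, hn⟩ = (⟨n, by omega⟩ : Fin 66) := fun _ _ => rfl
  obtain ⟨ρ1, e1⟩ := hR ⟨1, by norm_num⟩
  obtain ⟨ρ2, e2⟩ := hR ⟨2, by norm_num⟩
  obtain ⟨ρ56, e56⟩ := hR ⟨56, by norm_num⟩
  obtain ⟨ρ63, e63⟩ := hR ⟨63, by norm_num⟩
  obtain ⟨σ1, d1⟩ := hC ⟨1, by norm_num⟩
  obtain ⟨σ2, d2⟩ := hC ⟨2, by norm_num⟩
  obtain ⟨σ56, d56⟩ := hC ⟨56, by norm_num⟩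
  obtain ⟨σ63, d63⟩ := hC ⟨63, by norm_num⟩
  rw [hι] at e1 e2 e56 e63 d1 d2 d56 d63
  have e1' : φ 1 = _ := e1
  have e2' : φ 2 = _ := e2
  have e56' : φ 56 = _ := e56
  have e63' : φ 63 = _ := e63
  have d1' : ψ 1 = _ := d1
  have d2' : ψ 2 = _ := d2
  have d56' : ψ 56 = _ := d56
  have d63' : ψ 63 = _ := d63
  -- rows 64, 65 are core
  have y64 : 2 ≤ rowCls (φ 64) := by
    by_contra hn
    have hn' : rowCls (φ 64) ≤ 1 := by omega
    have hl : f.val + 1 ≤ rowLev (φ 64) := by
      have := rowLev_mono (hφ (show (63 : Fin 66) < 64 by decide)).le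
      rw [e63'] at this
      simpa [rowLev] using this
    by_cases hle : rowLev (φ 64) = f.val + 1
    · obtain ⟨g, ρ, e⟩ := row_of_lev hn' hle
      have hg : (63 : ℕ) ≤ g.val := by
        have := rowGrp_mono (hφ (show (63 : Fin 66) < 64 by decide)).le
          (by rw [e63', e]; rfl) (by rw [e63']; rfl)
        rw [e63', e] at this
        simpa [rowGrp] using this
      have hg' : g = ⟨63, by norm_num⟩ := Fin.ext (by have := g.isLt; simp only; omega)
      have := hc 64 56
      rw [e, d56', hg'] at this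
      simp only [cell, lt_self_iff_false, if_false] at this
      exact absurd this (by decide)
    · have := cell_lev_gt hn' (c := ψ 1) (by rw [d1']; simp [colCls])
        (by rw [d1']; simp only [colLev]; omega)
      rw [hc 64 1] at this
      exact absurd this (by decide)
  have y65 : 2 ≤ rowCls (φ 65) := y64.trans (rowCls_mono (hφ (by decide)).le)
  have x64 : 2 ≤ colCls (ψ 64) := by
    by_contra hn
    have hn' : colCls (ψ 64) ≤ 1 := by omega
    have hl : f.val + 1 ≤ colLev (ψ 64) := by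
      have := colLev_mono (hψ (show (63 : Fin 66) < 64 by decide)).le
      rw [d63'] at this
      simpa [colLev] using this
    by_cases hle : colLev (ψ 64) = f.val + 1
    · obtain ⟨g, ρ, e⟩ := col_of_lev hn' hle
      have hg : (63 : ℕ) ≤ g.val := by
        have := colGrp_mono (hψ (show (63 : Fin 66) < 64 by decide)).le
          (by rw [d63', e]; rfl) (by rw [d63']; rfl)
        rw [d63', e] at this
        simpa [colGrp] using this
      have hg' : g = ⟨63, by norm_num⟩ := Fin.ext (by have := g.isLt; simp only; omega)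
      have := hc 56 64
      rw [e, e56', hg'] at this
      simp only [cell, lt_self_iff_false, if_false] at this
      exact absurd this (by decide)
    · have := cell_lev_lt (r := φ 1) (by rw [e1']; simp [rowCls]) hn'
        (by rw [e1']; simp only [rowLev]; omega)
      rw [hc 1 64] at this
      exact absurd this (by decide)
  -- letters
  have m1 : (((kindOf h f).R1 h).mem (letR (φ 64))) = true := by
    have := hc 64 1
    rw [d1', cell_core_frame' y64] at this
    simpa [colSel, patH, hNat] using this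
  have m2 : (((kindOf h f).R2 h).mem (letR (φ 65))) = true := by
    have := hc 65 2
    rw [d2', cell_core_frame' y65] at this
    simpa [colSel, patH, hNat] using this
  have m3 : (((kindOf h f).C1 h).mem (letC (ψ 64))) = true := by
    have := hc 1 64
    rw [e1', cell_frame_core' x64] at this
    simpa [rowSel, patH, hNat] using this
  have x65 : 2 ≤ colCls (ψ 65) := x64.trans (colCls_mono (hψ (by decide)).le)
  have m4 : (((kindOf h f).C2 h).mem (letC (ψ 65))) = true := by
    have := hc 2 65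
    rw [e2', cell_frame_core' x65] at this
    simpa [rowSel, patH, hNat] using this
  exact no_H0 (kindOf h f) (φ 64) (φ 65) (ψ 64) (ψ 65) y64 (hφ (by decide)) x64 (hψ (by decide))
    m1 m2 m3 m4 (hc 64 64) (hc 64 65) (hc 65 64) (hc 65 65)

end copy

end Crest.Agent.S0066Lib
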