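import Crest.Agent.Lib.S0066.Tree

/-!
Definitions for S0066: the pattern `patH`, the line labels and the host `cell`.
-/

set_option autoImplicit false

namespace Crest.Agent.S0066Lib

/-- The `64 × 64` frame pattern: a staircase with a few overrides at the end. -/
def pNat (i j : ℕ) : Bool :=
  if i = 0 ∧ j = 61 then false
  else if i = 61 ∧ j = 0 then true
  else if i = 61 ∧ 55 ≤ j ∧ j ≤ 60 then [true, true, true, false, true, false].getD (j - 55) false
  else if i = 62 ∧ 55 ≤ j ∧ j ≤ 60 then [true, false, false, true, false, true].getD (j - 55) false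
  else if i = 63 ∧ 55 ≤ j ∧ j ≤ 60 then [false, true, true, false, false, false].getD (j - 55) false
  else if j = 61 ∧ 55 ≤ i ∧ i ≤ 60 then [false, false, true, false, true, false].getD (i - 55) false
  else if j = 62 ∧ 55 ≤ i ∧ i ≤ 60 then [false, true, false, true, false, true].getD (i - 55) false
  else if j = 63 ∧ 55 ≤ i ∧ i ≤ 60 then [true, false, false, true, true, true].getD (i - 55) false
  else decide (i < j)

/-- The whole pattern on natural indices. -/
def hNat (i j : ℕ) : Bool :=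
  if i < 64 then
    if j < 64 then pNat i j
    else if j = 64 then !(decide (i = 1))
    else !(decide (i = 2))
  else
    if j < 64 then (if i = 64 then decide (j = 1) else decide (j = 2))
    else if i = 64 then decide (j = 65) else decide (j = 64)

/-- The pattern of the theorem. -/
def patH (i j : Fin 66) : Bool := hNat i j

/-- A set of letters: a singleton or a strict up-set. -/
inductive Sel
  | sing (t : ℕ)
  | suff (t : ℕ)

/-- Membership of a letter. -/
def Sel.mem : Sel → ℕ → Bool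
  | .sing t, x => decide (x = t)
  | .suff t, x => decide (t < x)

lemma Sel.mem_sing (t x : ℕ) : (Sel.sing t).mem x = true ↔ x = t := by simp [Sel.mem]
lemma Sel.mem_suff (t x : ℕ) : (Sel.suff t).mem x = true ↔ t < x := by simp [Sel.mem]

/-- Two letter sets never cross. -/
lemma Sel.laminar (S S' : Sel) (x y z : ℕ)
    (h1 : S.mem x = true) (h2 : S.mem y = true) (h3 : S.mem z = false)
    (h4 : S'.mem x = true) (h5 : S'.mem z = true) (h6 : S'.mem y = false) : False := by
  cases S <;> cases S' <;> simp [Sel.mem] at h1 h2 h3 h4 h5 h6 <;> omega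

/-- The kinds of frames. -/
inductive Kind
  | W1 (t : ℕ)
  | W2 (t : ℕ)
  | W3 (t : ℕ)
  | W4 (t : ℕ)
  | Z (t : ℕ)
  | C

/-- Letters of core rows: `a ↦ 0`, `tree d ↦ d + 1`. The same for columns with `b`. -/
def Kind.R1 (h : ℕ) : Kind → Sel
  | .W1 t => .sing (t + 2)
  | .W2 t => .sing (t + 1)
  | .W3 t => .suff (t + 2)
  | .W4 t => .sing (t + 1)
  | .Z _ => .sing 0
  | .C => .sing (h + 1)

def Kind.R2 (h : ℕ) : Kind → Sel
  | .W1 t => .sing (t + 1)
  | .W2 t => .sing (t + 2)
  | .W3 t => .sing (t + 1)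
  | .W4 t => .suff (t + 2)
  | .Z t => .sing (t + 1)
  | .C => .sing (h + 2)

def Kind.C1 (h : ℕ) : Kind → Sel
  | .W1 t => .suff (t + 2)
  | .W2 t => .sing (t + 1)
  | .W3 t => .sing (t + 2)
  | .W4 t => .sing (t + 1)
  | .Z t => .sing (t + 1)
  | .C => .sing (h + 1)

def Kind.C2 (h : ℕ) : Kind → Sel
  | .W1 t => .sing (t + 1)
  | .W2 t => .suff (t + 2)
  | .W3 t => .sing (t + 1)
  | .W4 t => .sing (t + 2)
  | .Z _ => .sing 0
  | .C => .sing (h + 2)

lemma Kind.R_disj (h : ℕ) (k : Kind) (x : ℕ) (h1 : (k.R1 h).mem x = true)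
    (h2 : (k.R2 h).mem x = true) : False := by
  cases k <;> simp [Kind.R1, Kind.R2, Sel.mem] at h1 h2 <;> omega

lemma Kind.C_disj (h : ℕ) (k : Kind) (x : ℕ) (h1 : (k.C1 h).mem x = true)
    (h2 : (k.C2 h).mem x = true) : False := by
  cases k <;> simp [Kind.C1, Kind.C2, Sel.mem] at h1 h2 <;> omega

/-- Decoding of frame indices `f < 5 h + 2`. -/
def kindOf (h f : ℕ) : Kind :=
  if f < 4 * h then
    (if f % 4 = 0 then .W1 (f / 4) else if f % 4 = 1 then .W2 (f / 4)
     else if f % 4 = 2 then .W3 (f / 4) else .W4 (f / 4))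
  else if f < 5 * h + 1 then .Z (f - 4 * h + 1)
  else .C

/-- Valid kinds. -/
def Kind.valid (h : ℕ) : Kind → Prop
  | .W1 t => t < h
  | .W2 t => t < h
  | .W3 t => t < h
  | .W4 t => t < h
  | .Z t => 1 ≤ t ∧ t ≤ h + 1
  | .C => True

lemma kindOf_valid (h f : ℕ) : (kindOf h f).valid h := by
  unfold kindOf
  split_ifs <;> simp only [Kind.valid] <;> omega

/-- Index of a kind. -/
def Kind.idx (h : ℕ) : Kind → ℕ
  | .W1 t => 4 * t
  | .W2 t => 4 * t + 1
  | .W3 t => 4 * t + 2
  | .W4 t => 4 * t + 3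
  | .Z t => 4 * h + t - 1
  | .C => 5 * h + 1

lemma Kind.idx_lt (h : ℕ) (k : Kind) (hk : k.valid h) : k.idx h < 5 * h + 2 := by
  cases k <;> simp only [Kind.valid, Kind.idx] at hk ⊢ <;> omega

lemma kindOf_idx (h : ℕ) (k : Kind) (hk : k.valid h) : kindOf h (k.idx h) = k := by
  cases k with
  | W1 t =>
    simp only [Kind.valid] at hk
    have h1 : 4 * t < 4 * h := by omega
    have h2 : 4 * t % 4 = 0 := by omega
    have h3 : 4 * t / 4 = t := by omega
    simp [kindOf, Kind.idx, h1, h2, h3]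
  | W2 t =>
    simp only [Kind.valid] at hk
    have h1 : 4 * t + 1 < 4 * h := by omega
    have h2 : (4 * t + 1) % 4 = 1 := by omega
    have h3 : (4 * t + 1) / 4 = t := by omega
    simp [kindOf, Kind.idx, h1, h2, h3]
  | W3 t =>
    simp only [Kind.valid] at hk
    have h1 : 4 * t + 2 < 4 * h := by omega
    have h2 : (4 * t + 2) % 4 = 2 := by omega
    have h3 : (4 * t + 2) / 4 = t := by omega
    simp [kindOf, Kind.idx, h1, h2, h3]
  | W4 t =>
    simp only [Kind.valid] at hk
    have h1 : 4 * t + 3 < 4 * h := by omega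
    have h2 : (4 * t + 3) % 4 = 3 := by omega
    have h3 : (4 * t + 3) / 4 = t := by omega
    simp [kindOf, Kind.idx, h1, h2, h3]
  | Z t =>
    simp only [Kind.valid] at hk
    have h1 : ¬ (4 * h + t - 1 < 4 * h) := by omega
    have h2 : 4 * h + t - 1 < 5 * h + 1 := by omega
    have h3 : 4 * h + t - 1 - 4 * h + 1 = t := by omega
    simp [kindOf, Kind.idx, h1, h2, h3]
  | C =>
    have h1 : ¬ (5 * h + 1 < 4 * h) := by omega
    simp [kindOf, Kind.idx, h1]

/-- Number of padding lines. -/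
def pc (h : ℕ) : ℕ := (65 * h - 129) * 2 ^ h

set_option maxRecDepth 100000 in
/-- Row labels. -/
inductive RowL (h : ℕ)
  | pad (i : Fin (pc h))
  | fr (f : Fin (5 * h + 2)) (g : Fin 64) (ρ : Fin (2 ^ h))
  | a (ρ : Fin (2 ^ h))
  | tree (d : Fin (h + 2)) (T : Fin (2 ^ h))

set_option maxRecDepth 100000 in
/-- Column labels. -/
inductive ColL (h : ℕ)
  | pad (i : Fin (pc h))
  | fr (f : Fin (5 * h + 2)) (g : Fin 64) (ρ : Fin (2 ^ h))
  | tree (d : Fin (h + 2)) (T : Fin (2 ^ h))
  | b (ρ : Fin (2 ^ h))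

/-- Selector rows against a core column letter. -/
def rowSel (h : ℕ) (f : ℕ) (g : ℕ) (x : ℕ) : Bool :=
  if g = 1 then !((kindOf h f).C1 h).mem x
  else if g = 2 then !((kindOf h f).C2 h).mem x
  else true

/-- Selector columns against a core row letter. -/
def colSel (h : ℕ) (f : ℕ) (g : ℕ) (x : ℕ) : Bool :=
  if g = 1 then ((kindOf h f).R1 h).mem x
  else if g = 2 then ((kindOf h f).R2 h).mem x
  else false

/-- The host, on labels. -/
def cell (h : ℕ) : RowL h → ColL h → Bool
  | .pad _, .pad _ => false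
  | .pad _, .fr _ _ _ => true
  | .pad _, .tree _ _ => true
  | .pad _, .b _ => true
  | .fr _ _ _, .pad _ => false
  | .fr f g _, .fr f' g' _ =>
      if f.val < f'.val then true else if f'.val < f.val then false else pNat g g'
  | .fr f g _, .tree e _ => rowSel h f g (e.val + 1)
  | .fr f g _, .b _ => rowSel h f g 0
  | .a _, .pad _ => false
  | .a _, .fr f g _ => colSel h f g 0
  | .a _, .tree _ _ => false
  | .a _, .b _ => true
  | .tree _ _, .pad _ => false
  | .tree d _, .fr f g _ => colSel h f g (d.val + 1)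
  | .tree d T, .tree e S => treeM h d T e S
  | .tree _ _, .b _ => false

/-- Lexicographic quadruples. -/
abbrev K4 := ℕ ×ₗ ℕ ×ₗ ℕ ×ₗ ℕ

/-- A quadruple. -/
def k4 (a b c d : ℕ) : K4 := toLex (a, toLex (b, toLex (c, d)))

lemma k4_lt {a b c d a' b' c' d' : ℕ} :
    k4 a b c d < k4 a' b' c' d' ↔
      a < a' ∨ a = a' ∧ (b < b' ∨ b = b' ∧ (c < c' ∨ c = c' ∧ d < d')) := by
  simp [k4, Prod.Lex.toLex_lt_toLex]

lemma k4_inj {a b c d a' b' c' d' : ℕ} (he : k4 a b c d = k4 a' b' c' d') :
    a = a' ∧ b = b' ∧ c = c' ∧ d = d' := by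
  simpa [k4] using he

/-- Key of a row. -/
def rowKey (h : ℕ) : RowL h → K4
  | .pad i => k4 0 i 0 0
  | .fr f g ρ => k4 1 f g ρ
  | .a ρ => k4 2 ρ 0 0
  | .tree d T => k4 3 (pos h d T) T 0

/-- Key of a column. -/
def colKey (h : ℕ) : ColL h → K4
  | .pad i => k4 0 i 0 0
  | .fr f g ρ => k4 1 f g ρ
  | .tree d T => k4 2 (pos h d T) T 0
  | .b ρ => k4 3 ρ 0 0

lemma rowKey_inj (h : ℕ) : Function.Injective (rowKey h) := by
  intro r r' he
  cases r with
  | pad i =>
    cases r' <;> simp only [rowKey] at he <;> have h4 := k4_inj he <;> simp at h4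
    exact congrArg _ (Fin.ext h4)
  | fr f g ρ =>
    cases r' <;> simp only [rowKey] at he <;> have h4 := k4_inj he <;> simp at h4
    rw [Fin.ext h4.1, Fin.ext h4.2.1, Fin.ext h4.2.2]
  | a ρ =>
    cases r' <;> simp only [rowKey] at he <;> have h4 := k4_inj he <;> simp at h4
    exact congrArg _ (Fin.ext h4)
  | tree d T =>
    cases r' with
    | tree d' T' =>
      simp only [rowKey] at he
      have h4 := k4_inj he
      have hd : d = d' := by
        by_contra hne
        exact pos_ne h d d' T T' (fun h => hne (Fin.ext h)) (by omega) (by omega) h4.2.1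
      rw [hd, Fin.ext h4.2.2.1]
    | _ => simp only [rowKey] at he; have h4 := k4_inj he; simp at h4

lemma colKey_inj (h : ℕ) : Function.Injective (colKey h) := by
  intro r r' he
  cases r with
  | pad i =>
    cases r' <;> simp only [colKey] at he <;> have h4 := k4_inj he <;> simp at h4
    exact congrArg _ (Fin.ext h4)
  | fr f g ρ =>
    cases r' <;> simp only [colKey] at he <;> have h4 := k4_inj he <;> simp at h4
    rw [Fin.ext h4.1, Fin.ext h4.2.1, Fin.ext h4.2.2]
  | b ρ =>
    cases r' <;> simp only [colKey] at he <;> have h4 := k4_inj he <;> simp at h4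
    exact congrArg _ (Fin.ext h4)
  | tree d T =>
    cases r' with
    | tree d' T' =>
      simp only [colKey] at he
      have h4 := k4_inj he
      have hd : d = d' := by
        by_contra hne
        exact pos_ne h d d' T T' (fun h => hne (Fin.ext h)) (by omega) (by omega) h4.2.1
      rw [hd, Fin.ext h4.2.2.1]
    | _ => simp only [colKey] at he; have h4 := k4_inj he; simp at h4

instance (h : ℕ) : LinearOrder (RowL h) := LinearOrder.lift' (rowKey h) (rowKey_inj h)
instance (h : ℕ) : LinearOrder (ColL h) := LinearOrder.lift' (colKey h) (colKey_inj h)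

lemma RowL.lt_def {h : ℕ} (r r' : RowL h) : r < r' ↔ rowKey h r < rowKey h r' := Iff.rfl
lemma ColL.lt_def {h : ℕ} (r r' : ColL h) : r < r' ↔ colKey h r < colKey h r' := Iff.rfl

/-- Equivalence of the row labels with a sum type. -/
def rowEquiv (h : ℕ) :
    RowL h ≃ Fin (pc h) ⊕ (Fin (5 * h + 2) × Fin 64 × Fin (2 ^ h)) ⊕ Fin (2 ^ h) ⊕
      (Fin (h + 2) × Fin (2 ^ h)) where
  toFun
    | .pad i => .inl i
    | .fr f g ρ => .inr (.inl (f, g, ρ))
    | .a ρ => .inr (.inr (.inl ρ))
    | .tree d T => .inr (.inr (.inr (d, T)))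
  invFun
    | .inl i => .pad i
    | .inr (.inl (f, g, ρ)) => .fr f g ρ
    | .inr (.inr (.inl ρ)) => .a ρ
    | .inr (.inr (.inr (d, T))) => .tree d T
  left_inv r := by cases r <;> rfl
  right_inv r := by
    rcases r with i | ⟨f, g, ρ⟩ | ρ | ⟨d, T⟩ <;> rfl

/-- Equivalence of the column labels with a sum type. -/
def colEquiv (h : ℕ) :
    ColL h ≃ Fin (pc h) ⊕ (Fin (5 * h + 2) × Fin 64 × Fin (2 ^ h)) ⊕ Fin (2 ^ h) ⊕
      (Fin (h + 2) × Fin (2 ^ h)) where
  toFun
    | .pad i => .inl i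
    | .fr f g ρ => .inr (.inl (f, g, ρ))
    | .b ρ => .inr (.inr (.inl ρ))
    | .tree d T => .inr (.inr (.inr (d, T)))
  invFun
    | .inl i => .pad i
    | .inr (.inl (f, g, ρ)) => .fr f g ρ
    | .inr (.inr (.inl ρ)) => .b ρ
    | .inr (.inr (.inr (d, T))) => .tree d T
  left_inv r := by cases r <;> rfl
  right_inv r := by
    rcases r with i | ⟨f, g, ρ⟩ | ρ | ⟨d, T⟩ <;> rfl

instance (h : ℕ) : Fintype (RowL h) := Fintype.ofEquiv _ (rowEquiv h).symm
instance (h : ℕ) : Fintype (ColL h) := Fintype.ofEquiv _ (colEquiv h).symm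

lemma card_labels_aux {h : ℕ} (hh : 2 ≤ h) :
    pc h + ((5 * h + 2) * (64 * 2 ^ h) + (2 ^ h + (h + 2) * 2 ^ h)) = (386 * h + 2) * 2 ^ h := by
  unfold pc
  have : 65 * h - 129 + ((5 * h + 2) * 64 + (1 + (h + 2))) = 386 * h + 2 := by omega
  calc (65 * h - 129) * 2 ^ h + ((5 * h + 2) * (64 * 2 ^ h) + (2 ^ h + (h + 2) * 2 ^ h))
      = (65 * h - 129 + ((5 * h + 2) * 64 + (1 + (h + 2)))) * 2 ^ h := by ring
    _ = (386 * h + 2) * 2 ^ h := by rw [this]

lemma card_RowL {h : ℕ} (hh : 2 ≤ h) : Fintype.card (RowL h) = (386 * h + 2) * 2 ^ h := by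
  rw [Fintype.card_congr (rowEquiv h)]
  simp only [Fintype.card_sum, Fintype.card_prod, Fintype.card_fin]
  exact card_labels_aux hh

lemma card_ColL {h : ℕ} (hh : 2 ≤ h) : Fintype.card (ColL h) = (386 * h + 2) * 2 ^ h := by
  rw [Fintype.card_congr (colEquiv h)]
  simp only [Fintype.card_sum, Fintype.card_prod, Fintype.card_fin]
  exact card_labels_aux hh

end Crest.Agent.S0066Lib
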