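import Crest.Agent.Lib.S0066.Basic

/-!
The lower bound for S0066: agreeing on the exposed cells of a selection forces a copy.
-/

set_option autoImplicit false

namespace Crest.Agent.S0066Lib

variable {h : ℕ}

/-- Signature of a row: thick with a rep, or a tree line with its index. -/
def rowSig : RowL h → Option (Bool × Fin (2 ^ h))
  | .pad _ => none
  | .fr _ _ ρ => some (true, ρ)
  | .a ρ => some (true, ρ)
  | .tree d T => if d.val = 0 then some (true, T) else some (false, T)

/-- Signature of a column. -/
def colSig : ColL h → Option (Bool × Fin (2 ^ h))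
  | .pad _ => none
  | .fr _ _ ρ => some (true, ρ)
  | .b ρ => some (true, ρ)
  | .tree d T => if d.val = 0 then some (true, T) else some (false, T)

/-- The exposed cells of the selection `(T, R)`. -/
def exposed (T R : Fin (2 ^ h)) (r : RowL h) (c : ColL h) : Prop :=
  (rowSig r = some (true, R) ∧ colSig c = some (true, T + R)) ∨
  (rowSig r = some (true, R) ∧ colSig c = some (false, T)) ∨
  (rowSig r = some (false, T) ∧ colSig c = some (true, T + R))

/-- A cell is exposed by at most one selection. -/
lemma exposed_unique {T R T' R' : Fin (2 ^ h)} {r : RowL h} {c : ColL h}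
    (h1 : exposed T R r c) (h2 : exposed T' R' r c) : T = T' ∧ R = R' := by
  have : NeZero (2 ^ h) := ⟨by positivity⟩
  have bad : ∀ {x y : Fin (2 ^ h)}, (some (true, x) : Option (Bool × Fin (2 ^ h))) = some (false, y) →
      False := fun he => Bool.noConfusion (congrArg Prod.fst (Option.some.inj he))
  have snd : ∀ {b : Bool} {x y : Fin (2 ^ h)},
      (some (b, x) : Option (Bool × Fin (2 ^ h))) = some (b, y) → x = y :=
    fun he => congrArg Prod.snd (Option.some.inj he)
  rcases h1 with ⟨a, b⟩ | ⟨a, b⟩ | ⟨a, b⟩ <;> rcases h2 with ⟨a', b'⟩ | ⟨a', b'⟩ | ⟨a', b'⟩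
  · have e1 := snd (a.symm.trans a')
    have e2 := snd (b.symm.trans b')
    subst e1
    exact ⟨add_right_cancel e2, rfl⟩
  · exact (bad (b.symm.trans b')).elim
  · exact (bad (a.symm.trans a')).elim
  · exact (bad (b'.symm.trans b)).elim
  · exact ⟨snd (b.symm.trans b'), snd (a.symm.trans a')⟩
  · exact (bad (a.symm.trans a')).elim
  · exact (bad (a'.symm.trans a)).elim
  · exact (bad (a'.symm.trans a)).elim
  · have e1 := snd (a.symm.trans a')
    have e2 := snd (b.symm.trans b')
    subst e1
    exact ⟨rfl, add_left_cancel e2⟩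

lemma pos_zero_eq {T T' : Fin (2 ^ h)} : pos h 0 T = pos h 0 T' := by
  unfold pos
  rw [pre_zero T.isLt, pre_zero T'.isLt]

section selection

variable (T R : Fin (2 ^ h)) {B' : RowL h → ColL h → Bool}

/-- The row of level `d` of the selection. -/
def yL (d : Fin (h + 2)) : RowL h := RowL.tree d (if d.val = 0 then R else T)

/-- The column of level `d` of the selection. -/
def xL (d : Fin (h + 2)) : ColL h := ColL.tree d (if d.val = 0 then T + R else T)

lemma rowSig_yL (d : Fin (h + 2)) :
    rowSig (yL T R d) = some (true, R) ∨ rowSig (yL T R d) = some (false, T) := by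
  by_cases hd : d.val = 0 <;> simp [rowSig, yL, hd]

lemma colSig_xL (d : Fin (h + 2)) :
    colSig (xL T R d) = some (true, T + R) ∨ colSig (xL T R d) = some (false, T) := by
  by_cases hd : d.val = 0 <;> simp [colSig, xL, hd]

lemma rowCls_lt {r r' : RowL h} (hl : rowCls r < rowCls r') : r < r' := by
  rw [RowL.lt_def]
  cases r <;> cases r' <;> simp only [rowCls] at hl <;> simp only [rowKey, k4_lt] <;> omega

lemma colCls_lt {r r' : ColL h} (hl : colCls r < colCls r') : r < r' := by
  rw [ColL.lt_def]
  cases r <;> cases r' <;> simp only [colCls] at hl <;> simp only [colKey, k4_lt] <;> omega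

/-- A frame with its selected core lines gives a copy. -/
lemma frame_copy (hB : ∀ r c, exposed T R r c → B' r c = cell h r c)
    (hno : ∀ (φ : Fin 66 → RowL h) (ψ : Fin 66 → ColL h), StrictMono φ → StrictMono ψ →
      ¬ ∀ i j, B' (φ i) (ψ j) = patH i j)
    (k : Kind) (hk : k.valid h) (y1 y2 : RowL h) (x1 x2 : ColL h)
    (hy1 : 2 ≤ rowCls y1) (hy : y1 < y2) (hx1 : 2 ≤ colCls x1) (hx : x1 < x2)
    (sy1 : rowSig y1 = some (true, R) ∨ rowSig y1 = some (false, T))
    (sy2 : rowSig y2 = some (true, R) ∨ rowSig y2 = some (false, T))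
    (sx1 : colSig x1 = some (true, T + R) ∨ colSig x1 = some (false, T))
    (sx2 : colSig x2 = some (true, T + R) ∨ colSig x2 = some (false, T))
    (m1 : (k.R1 h).mem (letR y1) = true) (m2 : (k.R2 h).mem (letR y2) = true)
    (m3 : (k.C1 h).mem (letC x1) = true) (m4 : (k.C2 h).mem (letC x2) = true)
    (v11 : B' y1 x1 = false) (v12 : B' y1 x2 = true)
    (v21 : B' y2 x1 = true) (v22 : B' y2 x2 = false) : False := by
  have hy2 : 2 ≤ rowCls y2 := hy1.trans (rowCls_mono hy.le)
  have hx2 : 2 ≤ colCls x2 := hx1.trans (colCls_mono hx.le)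
  let f : Fin (5 * h + 2) := ⟨k.idx h, Kind.idx_lt h k hk⟩
  have hkf : kindOf h f = k := kindOf_idx h k hk
  let φ : Fin 66 → RowL h := fun i =>
    if hi : i.val < 64 then RowL.fr f ⟨i.val, hi⟩ R else if i.val = 64 then y1 else y2
  let ψ : Fin 66 → ColL h := fun i =>
    if hi : i.val < 64 then ColL.fr f ⟨i.val, hi⟩ (T + R) else if i.val = 64 then x1 else x2
  have hφ : StrictMono φ := by
    intro i i' hlt
    have hlt' : i.val < i'.val := hlt
    have hi' := i'.isLt
    simp only [φ]
    by_cases a : i.val < 64
    · rw [dif_pos a]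
      by_cases b : i'.val < 64
      · rw [dif_pos b, RowL.lt_def]
        simp only [rowKey, k4_lt]
        exact Or.inr ⟨trivial, Or.inr ⟨trivial, Or.inl hlt'⟩⟩
      · rw [dif_neg b]
        split_ifs
        · exact rowCls_lt (show 1 < rowCls y1 by omega)
        · exact rowCls_lt (show 1 < rowCls y2 by omega)
    · have b : ¬ i'.val < 64 := by omega
      rw [dif_neg a, dif_neg b]
      have e1 : i.val = 64 := by omega
      have e2 : i'.val ≠ 64 := by omega
      rw [if_pos e1, if_neg e2]
      exact hy
  have hψ : StrictMono ψ := by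
    intro i i' hlt
    have hlt' : i.val < i'.val := hlt
    have hi' := i'.isLt
    simp only [ψ]
    by_cases a : i.val < 64
    · rw [dif_pos a]
      by_cases b : i'.val < 64
      · rw [dif_pos b, ColL.lt_def]
        simp only [colKey, k4_lt]
        exact Or.inr ⟨trivial, Or.inr ⟨trivial, Or.inl hlt'⟩⟩
      · rw [dif_neg b]
        split_ifs
        · exact colCls_lt (show 1 < colCls x1 by omega)
        · exact colCls_lt (show 1 < colCls x2 by omega)
    · have b : ¬ i'.val < 64 := by omega
      rw [dif_neg a, dif_neg b]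
      have e1 : i.val = 64 := by omega
      have e2 : i'.val ≠ 64 := by omega
      rw [if_pos e1, if_neg e2]
      exact hx
  apply hno φ ψ hφ hψ
  intro i j
  have hi66 := i.isLt
  have hj66 := j.isLt
  -- exposed cells
  have exp_fr_fr : ∀ (g g' : Fin 64), exposed T R (RowL.fr f g R) (ColL.fr f g' (T + R)) :=
    fun g g' => Or.inl ⟨rfl, rfl⟩
  have exp_fr_x : ∀ (g : Fin 64) (x : ColL h),
      (colSig x = some (true, T + R) ∨ colSig x = some (false, T)) →
      exposed T R (RowL.fr f g R) x := by
    intro g x hx
    rcases hx with hx | hx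
    · exact Or.inl ⟨rfl, hx⟩
    · exact Or.inr (Or.inl ⟨rfl, hx⟩)
  have exp_y_fr : ∀ (g : Fin 64) (y : RowL h),
      (rowSig y = some (true, R) ∨ rowSig y = some (false, T)) →
      exposed T R y (ColL.fr f g (T + R)) := by
    intro g y hy
    rcases hy with hy | hy
    · exact Or.inl ⟨hy, rfl⟩
    · exact Or.inr (Or.inr ⟨hy, rfl⟩)
  have dC1 : ((k.C2 h).mem (letC x1)) = false := by
    by_contra hcon
    exact Kind.C_disj h k _ m3 (by simpa using hcon)
  have dC2 : ((k.C1 h).mem (letC x2)) = false := by
    by_contra hcon
    exact Kind.C_disj h k _ (by simpa using hcon) m4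
  have dR1 : ((k.R2 h).mem (letR y1)) = false := by
    by_contra hcon
    exact Kind.R_disj h k _ m1 (by simpa using hcon)
  have dR2 : ((k.R1 h).mem (letR y2)) = false := by
    by_contra hcon
    exact Kind.R_disj h k _ (by simpa using hcon) m2
  by_cases a : i.val < 64
  · have e1 : φ i = RowL.fr f ⟨i.val, a⟩ R := dif_pos a
    by_cases b : j.val < 64
    · have e2 : ψ j = ColL.fr f ⟨j.val, b⟩ (T + R) := dif_pos b
      rw [e1, e2, hB _ _ (exp_fr_fr _ _)]
      simp [cell, patH, hNat, a, b]
    · by_cases c : j.val = 64
      · have e2 : ψ j = x1 := by simp only [ψ]; rw [dif_neg b, if_pos c]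
        rw [e1, e2, hB _ _ (exp_fr_x _ _ sx1), cell_frame_core' hx1]
        simp only [rowSel, hkf, patH, hNat, a, if_true, b, if_false, c]
        by_cases d : i.val = 1
        · simp [d, m3]
        · by_cases d2 : i.val = 2
          · simp [d2, dC1]
          · simp [d, d2]
      · have e2 : ψ j = x2 := by simp only [ψ]; rw [dif_neg b, if_neg c]
        rw [e1, e2, hB _ _ (exp_fr_x _ _ sx2), cell_frame_core' hx2]
        simp only [rowSel, hkf, patH, hNat, a, if_true, b, if_false, c]
        by_cases d : i.val = 1
        · simp [d, dC2]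
        · by_cases d2 : i.val = 2
          · simp [d2, m4]
          · simp [d, d2]
  · by_cases c : i.val = 64
    · have e1 : φ i = y1 := by simp only [φ]; rw [dif_neg a, if_pos c]
      by_cases b : j.val < 64
      · have e2 : ψ j = ColL.fr f ⟨j.val, b⟩ (T + R) := dif_pos b
        rw [e1, e2, hB _ _ (exp_y_fr _ _ sy1), cell_core_frame' hy1]
        simp only [colSel, hkf, patH, hNat, a, if_false, b, if_true, c]
        by_cases d : j.val = 1
        · simp [d, m1]
        · by_cases d2 : j.val = 2
          · simp [d2, dR1]
          · simp [d, d2]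
      · by_cases c2 : j.val = 64
        · have e2 : ψ j = x1 := by simp only [ψ]; rw [dif_neg b, if_pos c2]
          rw [e1, e2, v11]
          simp [patH, hNat, a, b, c, c2]
        · have e2 : ψ j = x2 := by simp only [ψ]; rw [dif_neg b, if_neg c2]
          have : j.val = 65 := by omega
          rw [e1, e2, v12]
          simp [patH, hNat, a, b, c, this]
    · have e1 : φ i = y2 := by simp only [φ]; rw [dif_neg a, if_neg c]
      by_cases b : j.val < 64
      · have e2 : ψ j = ColL.fr f ⟨j.val, b⟩ (T + R) := dif_pos b
        rw [e1, e2, hB _ _ (exp_y_fr _ _ sy2), cell_core_frame' hy2]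
        simp only [colSel, hkf, patH, hNat, a, if_false, b, if_true, c]
        by_cases d : j.val = 1
        · simp [d, dR2]
        · by_cases d2 : j.val = 2
          · simp [d2, m2]
          · simp [d, d2]
      · by_cases c2 : j.val = 64
        · have e2 : ψ j = x1 := by simp only [ψ]; rw [dif_neg b, if_pos c2]
          rw [e1, e2, v21]
          simp [patH, hNat, a, b, c, c2]
        · have e2 : ψ j = x2 := by simp only [ψ]; rw [dif_neg b, if_neg c2]
          have : j.val = 65 := by omega
          rw [e1, e2, v22]
          simp [patH, hNat, a, b, c, this]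

/-- The cells on the diagonal of the selection are zero. -/
lemma zero_cell (hB : ∀ r c, exposed T R r c → B' r c = cell h r c)
    (hno : ∀ (φ : Fin 66 → RowL h) (ψ : Fin 66 → ColL h), StrictMono φ → StrictMono ψ →
      ¬ ∀ i j, B' (φ i) (ψ j) = patH i j)
    (d : Fin (h + 2)) : B' (yL T R d) (xL T R d) = false := by
  by_cases hd : d.val = 0
  · have he : exposed T R (yL T R d) (xL T R d) := by
      left
      simp [rowSig, colSig, yL, xL, hd]
    rw [hB _ _ he]
    simp [cell, yL, xL, treeM]
  · by_contra hcon
    have v21 : B' (yL T R d) (xL T R d) = true := by simpa using hcon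
    have hy : rowSig (yL T R d) = some (false, T) := by simp [rowSig, yL, hd]
    have hx : colSig (xL T R d) = some (false, T) := by simp [colSig, xL, hd]
    have hy' : letR (yL T R d) = d.val + 1 := rfl
    have hx' : letC (xL T R d) = d.val + 1 := rfl
    refine frame_copy T R hB hno (Kind.Z d.val) ⟨by omega, by omega⟩ (RowL.a R) (yL T R d) (xL T R d)
      (ColL.b (T + R)) (by simp [rowCls]) (rowCls_lt (by simp [rowCls, yL]))
      (by simp [colCls, xL]) (colCls_lt (by simp [colCls, xL]))
      (Or.inl rfl) (Or.inr hy) (Or.inr hx) (Or.inl rfl)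
      (by simp [Kind.R1, Sel.mem, letR]) (by simp [Kind.R2, Sel.mem, hy'])
      (by simp [Kind.C1, Sel.mem, hx']) (by simp [Kind.C2, Sel.mem, letC]) ?_ ?_ v21 ?_
    · rw [hB _ _ (Or.inr (Or.inl ⟨rfl, hx⟩))]
      simp [cell, xL]
    · rw [hB _ _ (Or.inl ⟨rfl, rfl⟩)]
      simp [cell]
    · rw [hB _ _ (Or.inr (Or.inr ⟨hy, rfl⟩))]
      simp [cell, yL]

/-- The position of the selected line of level `t`. -/
lemma pos_yL (t : Fin (h + 2)) :
    pos h t (if t.val = 0 then R else T : Fin (2 ^ h)) = pos h t T := by
  by_cases ht : t.val = 0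
  · rw [if_pos ht, ht]
    exact pos_zero_eq
  · rw [if_neg ht]

lemma pos_xL (t : Fin (h + 2)) :
    pos h t (if t.val = 0 then T + R else T : Fin (2 ^ h)) = pos h t T := by
  by_cases ht : t.val = 0
  · rw [if_pos ht, ht]
    exact pos_zero_eq
  · rw [if_neg ht]

lemma pre_yL (t : Fin (h + 2)) :
    pre h t (if t.val = 0 then R else T : Fin (2 ^ h)) = pre h t T := by
  by_cases ht : t.val = 0
  · rw [if_pos ht, ht, pre_zero R.isLt, pre_zero T.isLt]
  · rw [if_neg ht]

lemma pre_xL (t : Fin (h + 2)) :
    pre h t (if t.val = 0 then T + R else T : Fin (2 ^ h)) = pre h t T := by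
  by_cases ht : t.val = 0
  · rw [if_pos ht, ht, pre_zero (T + R).isLt, pre_zero T.isLt]
  · rw [if_neg ht]

/-- The off-diagonal cells of the selection are one. -/
lemma one_cell (hB : ∀ r c, exposed T R r c → B' r c = cell h r c)
    (hno : ∀ (φ : Fin 66 → RowL h) (ψ : Fin 66 → ColL h), StrictMono φ → StrictMono ψ →
      ¬ ∀ i j, B' (φ i) (ψ j) = patH i j) :
    ∀ (m : ℕ) (d e : Fin (h + 2)), d.val ≠ e.val → min d.val e.val = m →
      B' (yL T R d) (xL T R e) = true := by
  intro m
  induction m using Nat.strong_induction_on with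
  | _ m ih =>
    intro d e hne hmin
    rcases Nat.eq_zero_or_pos m with rfl | hm
    · -- the root is thick
      by_cases hd : d.val = 0
      · have he0 : e.val ≠ 0 := by omega
        have hexp : exposed T R (yL T R d) (xL T R e) := by
          right; left
          simp [rowSig, colSig, yL, xL, hd, he0]
        rw [hB _ _ hexp]
        simp only [cell, yL, xL]
        refine treeM_eq_true.mpr ⟨hne, ?_⟩
        rw [hmin, hd]
        simp only [if_true]
        rw [pre_zero R.isLt]
        rw [pre_zero (by split_ifs <;> exact Fin.isLt _)]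
      · have he0 : e.val = 0 := by omega
        have hexp : exposed T R (yL T R d) (xL T R e) := by
          right; right
          simp [rowSig, colSig, yL, xL, hd, he0]
        rw [hB _ _ hexp]
        simp only [cell, yL, xL]
        refine treeM_eq_true.mpr ⟨hne, ?_⟩
        rw [hmin, he0]
        simp only [if_true]
        rw [pre_zero (T + R).isLt]
        rw [pre_zero (by split_ifs <;> exact Fin.isLt _)]
    · obtain ⟨t, rfl⟩ : ∃ t, m = t + 1 := ⟨m - 1, by omega⟩
      have hdt : t < d.val := by omega
      have het : t < e.val := by omega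
      have hd0 : d.val ≠ 0 := by omega
      have he0 : e.val ≠ 0 := by omega
      have hth : t < h := by omega
      let w : Fin (h + 2) := ⟨t, by omega⟩
      have hw : w.val = t := rfl
      have z := zero_cell T R hB hno w
      have a1 : B' (yL T R d) (xL T R w) = true :=
        ih t (by omega) d w (by omega) (by omega)
      have a2 : B' (yL T R w) (xL T R e) = true :=
        ih t (by omega) w e (by omega) (by omega)
      by_contra hcon
      have v : B' (yL T R d) (xL T R e) = false := by simpa using hcon
      -- lines of deep level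
      have yd : yL T R d = RowL.tree d T := by simp [yL, hd0]
      have xe : xL T R e = ColL.tree e T := by simp [xL, he0]
      have lw1 : letR (yL T R w) = t + 1 := rfl
      have lw2 : letC (xL T R w) = t + 1 := rfl
      have ld : letR (yL T R d) = d.val + 1 := rfl
      have le : letC (xL T R e) = e.val + 1 := rfl
      have preS := pre_succ h t T (by omega)
      rcases (by omega : pre h (t + 1) T ≤ 2 * pre h t T ∨ 2 * pre h t T + 1 ≤ pre h (t + 1) T)
        with hleft | hright
      · -- the deep lines are left of the witness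
        have p1 : pos h d T < pos h t T := (pos_lt_iff h t d T T hdt (by omega)).mpr hleft
        have p2 : pos h e T < pos h t T := (pos_lt_iff h t e T T het (by omega)).mpr hleft
        have oy : yL T R d < yL T R w := by
          rw [yd, RowL.lt_def]
          simp only [rowKey, k4_lt, yL]
          have := pos_yL T R w
          rw [hw] at this ⊢
          right
          refine ⟨trivial, Or.inl ?_⟩
          rw [this]
          exact p1
        have ox : xL T R e < xL T R w := by
          rw [xe, ColL.lt_def]
          simp only [colKey, k4_lt, xL]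
          have := pos_xL T R w
          rw [hw] at this ⊢
          right
          refine ⟨trivial, Or.inl ?_⟩
          rw [this]
          exact p2
        by_cases hd1 : d.val = t + 1
        · refine frame_copy T R hB hno (Kind.W1 t) hth (yL T R d) (yL T R w) (xL T R e) (xL T R w)
            (by rw [yd]; simp [rowCls]) oy (by rw [xe]; simp [colCls]) ox
            (rowSig_yL T R d) (rowSig_yL T R w) (colSig_xL T R e) (colSig_xL T R w)
            ?_ ?_ ?_ ?_ v a1 a2 z
          · simp only [Kind.R1, Sel.mem_sing]; omega
          · simp only [Kind.R2, Sel.mem_sing]; omega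
          · simp only [Kind.C1, Sel.mem_suff]; omega
          · simp only [Kind.C2, Sel.mem_sing]; omega
        · refine frame_copy T R hB hno (Kind.W3 t) hth (yL T R d) (yL T R w) (xL T R e) (xL T R w)
            (by rw [yd]; simp [rowCls]) oy (by rw [xe]; simp [colCls]) ox
            (rowSig_yL T R d) (rowSig_yL T R w) (colSig_xL T R e) (colSig_xL T R w)
            ?_ ?_ ?_ ?_ v a1 a2 z
          · simp only [Kind.R1, Sel.mem_suff]; omega
          · simp only [Kind.R2, Sel.mem_sing]; omega
          · simp only [Kind.C1, Sel.mem_sing]; omega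
          · simp only [Kind.C2, Sel.mem_sing]; omega
      · -- the deep lines are right of the witness
        have p1 : pos h t T < pos h d T := (pos_gt_iff h t d T T hdt (by omega)).mpr hright
        have p2 : pos h t T < pos h e T := (pos_gt_iff h t e T T het (by omega)).mpr hright
        have oy : yL T R w < yL T R d := by
          rw [yd, RowL.lt_def]
          simp only [rowKey, k4_lt, yL]
          have := pos_yL T R w
          rw [hw] at this ⊢
          right
          refine ⟨trivial, Or.inl ?_⟩
          rw [this]
          exact p1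
        have ox : xL T R w < xL T R e := by
          rw [xe, ColL.lt_def]
          simp only [colKey, k4_lt, xL]
          have := pos_xL T R w
          rw [hw] at this ⊢
          right
          refine ⟨trivial, Or.inl ?_⟩
          rw [this]
          exact p2
        by_cases hd1 : d.val = t + 1
        · refine frame_copy T R hB hno (Kind.W2 t) hth (yL T R w) (yL T R d) (xL T R w) (xL T R e)
            (by simp [yL, rowCls]) oy (by simp [xL, colCls]) ox
            (rowSig_yL T R w) (rowSig_yL T R d) (colSig_xL T R w) (colSig_xL T R e)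
            ?_ ?_ ?_ ?_ z a2 a1 v
          · simp only [Kind.R1, Sel.mem_sing]; omega
          · simp only [Kind.R2, Sel.mem_sing]; omega
          · simp only [Kind.C1, Sel.mem_sing]; omega
          · simp only [Kind.C2, Sel.mem_suff]; omega
        · refine frame_copy T R hB hno (Kind.W4 t) hth (yL T R w) (yL T R d) (xL T R w) (xL T R e)
            (by simp [yL, rowCls]) oy (by simp [xL, colCls]) ox
            (rowSig_yL T R w) (rowSig_yL T R d) (colSig_xL T R w) (colSig_xL T R e)
            ?_ ?_ ?_ ?_ z a2 a1 v
          · simp only [Kind.R1, Sel.mem_sing]; omega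
          · simp only [Kind.R2, Sel.mem_suff]; omega
          · simp only [Kind.C1, Sel.mem_sing]; omega
          · simp only [Kind.C2, Sel.mem_sing]; omega

/-- Agreeing with the host on the exposed cells of a selection forces a copy. -/
theorem far_core (hh : 1 ≤ h) (hB : ∀ r c, exposed T R r c → B' r c = cell h r c) :
    ∃ (φ : Fin 66 → RowL h) (ψ : Fin 66 → ColL h), StrictMono φ ∧ StrictMono ψ ∧
      ∀ i j, B' (φ i) (ψ j) = patH i j := by
  by_contra hcon
  have hno : ∀ (φ : Fin 66 → RowL h) (ψ : Fin 66 → ColL h), StrictMono φ → StrictMono ψ →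
      ¬ ∀ i j, B' (φ i) (ψ j) = patH i j :=
    fun φ ψ a b c => hcon ⟨φ, ψ, a, b, c⟩
  let d1 : Fin (h + 2) := ⟨h, by omega⟩
  let d2 : Fin (h + 2) := ⟨h + 1, by omega⟩
  have hd1 : d1.val = h := rfl
  have hd2 : d2.val = h + 1 := rfl
  have y1 : yL T R d1 = RowL.tree d1 T := by
    have : d1.val ≠ 0 := by omega
    simp [yL, this]
  have y2 : yL T R d2 = RowL.tree d2 T := by
    have : d2.val ≠ 0 := by omega
    simp [yL, this]
  have x1 : xL T R d1 = ColL.tree d1 T := by
    have : d1.val ≠ 0 := by omega
    simp [xL, this]
  have x2 : xL T R d2 = ColL.tree d2 T := by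
    have : d2.val ≠ 0 := by omega
    simp [xL, this]
  have p : pos h d1 T < pos h d2 T := by
    rw [hd1, hd2, pos_last, pos_top]; omega
  have oy : yL T R d1 < yL T R d2 := by
    rw [y1, y2, RowL.lt_def]
    simp only [rowKey, k4_lt]
    right
    exact ⟨trivial, Or.inl p⟩
  have ox : xL T R d1 < xL T R d2 := by
    rw [x1, x2, ColL.lt_def]
    simp only [colKey, k4_lt]
    right
    exact ⟨trivial, Or.inl p⟩
  refine frame_copy T R hB hno Kind.C trivial (yL T R d1) (yL T R d2) (xL T R d1) (xL T R d2)
    (by rw [y1]; simp [rowCls]) oy (by rw [x1]; simp [colCls]) ox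
    (rowSig_yL T R d1) (rowSig_yL T R d2) (colSig_xL T R d1) (colSig_xL T R d2)
    ?_ ?_ ?_ ?_ (zero_cell T R hB hno d1)
    (one_cell T R hB hno _ d1 d2 (by omega) rfl) (one_cell T R hB hno _ d2 d1 (by omega) rfl)
    (zero_cell T R hB hno d2)
  · have : letR (yL T R d1) = h + 1 := rfl
    simp only [Kind.R1, Sel.mem_sing]; omega
  · have : letR (yL T R d2) = h + 1 + 1 := rfl
    simp only [Kind.R2, Sel.mem_sing]; omega
  · have : letC (xL T R d1) = h + 1 := rfl
    simp only [Kind.C1, Sel.mem_sing]; omega
  · have : letC (xL T R d2) = h + 1 + 1 := rfl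
    simp only [Kind.C2, Sel.mem_sing]; omega

end selection

end Crest.Agent.S0066Lib
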