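import Crest.Agent.Lib.S0066.Classify
import Crest.Agent.Lib.S0066.Far
import Crest.Prelude.Def_OrderedMatrix

/-!
Assembly of S0066 for `h ≥ 2`.
-/

set_option autoImplicit false

namespace Crest.Agent.S0066Lib

open Crest.CombinatoricsR.OrderedMatrix

lemma real_bound {c N L n : ℝ} (hN : 0 < N) (hL : 0 < L) (hn : n = L * N) (hn1 : 1 ≤ n)
    (hc : c ≤ N * n ^ 128) : c / n ^ 132 ≤ (L ^ 2)⁻¹ * N⁻¹ := by
  have hnpos : 0 < n := by linarith
  rw [div_le_iff₀ (by positivity)]
  have e : (L ^ 2)⁻¹ * N⁻¹ * n ^ 132 = N * n ^ 128 * n ^ 2 := by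
    have : n ^ 132 = n ^ 128 * n ^ 2 * n ^ 2 := by ring
    rw [this]
    have h2 : n ^ 2 = L ^ 2 * N ^ 2 := by rw [hn]; ring
    nth_rewrite 2 [h2]
    field_simp
  rw [e]
  have : (1 : ℝ) ≤ n ^ 2 := one_le_pow₀ hn1
  have hb : 0 ≤ N * n ^ 128 := by positivity
  nlinarith

lemma cast_count_helper {c h m : ℕ} (h1 : c ≤ 2 ^ h * (m ^ 64 * m ^ 64)) :
    (c : ℝ) ≤ 2 ^ h * (m : ℝ) ^ 128 := by
  have h2 : (c : ℝ) ≤ ((2 ^ h * (m ^ 64 * m ^ 64) : ℕ) : ℝ) := by exact_mod_cast h1
  refine h2.trans (le_of_eq ?_)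
  push_cast
  ring

variable {h : ℕ}

section main

variable {n : ℕ} (e : Fin n ≃o RowL h) (e' : Fin n ≃o ColL h)

/-- The host on `Fin n`. -/
def hostA : Fin n → Fin n → Bool := fun i j => cell h (e i) (e' j)

/-- The lower bound on the number of flips. -/
lemma far_bound (hh : 1 ≤ h) (B : Fin n → Fin n → Bool)
    (hB : orderedCopyCount patH B = 0) :
    (2 ^ h) ^ 2 ≤ (Finset.univ.filter (fun rc : Fin n × Fin n =>
      hostA e e' rc.1 rc.2 ≠ B rc.1 rc.2)).card := by
  classical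
  let B' : RowL h → ColL h → Bool := fun r c => B (e.symm r) (e'.symm c)
  have key : ∀ p : Fin (2 ^ h) × Fin (2 ^ h), ∃ rc : RowL h × ColL h,
      exposed p.1 p.2 rc.1 rc.2 ∧ B' rc.1 rc.2 ≠ cell h rc.1 rc.2 := by
    intro p
    by_contra hcon
    push Not at hcon
    obtain ⟨φ, ψ, hφ, hψ, hv⟩ := far_core (B' := B') p.1 p.2 hh
      (fun r c hrc => hcon (r, c) hrc)
    have hpos : 0 < orderedCopyCount patH B := by
      unfold orderedCopyCount
      refine Fintype.card_pos_iff.mpr ⟨⟨(e.symm ∘ φ, e'.symm ∘ ψ), ?_, ?_, ?_⟩⟩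
      · exact e.symm.strictMono.comp hφ
      · exact e'.symm.strictMono.comp hψ
      · intro i j
        exact hv i j
    omega
  choose g hg1 hg2 using key
  let G : Fin (2 ^ h) × Fin (2 ^ h) → Fin n × Fin n := fun p => (e.symm (g p).1, e'.symm (g p).2)
  have hG : ∀ p, G p ∈ Finset.univ.filter (fun rc : Fin n × Fin n =>
      hostA e e' rc.1 rc.2 ≠ B rc.1 rc.2) := by
    intro p
    simp only [Finset.mem_filter, Finset.mem_univ, true_and, G, hostA, OrderIso.apply_symm_apply]
    exact fun he => hg2 p he.symm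
  have hinj : Function.Injective G := by
    intro p q hpq
    have h1 : (g p).1 = (g q).1 := by
      have := congrArg Prod.fst hpq
      exact e.symm.injective this
    have h2 : (g p).2 = (g q).2 := by
      have := congrArg Prod.snd hpq
      exact e'.symm.injective this
    have hp := hg1 p
    have hq := hg1 q
    rw [h1, h2] at hp
    obtain ⟨a, b⟩ := exposed_unique hp hq
    exact Prod.ext a b
  have := Finset.card_le_card_of_injOn G (s := Finset.univ) (fun p _ => hG p)
    (fun a _ b _ hab => hinj hab)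
  simpa [Fintype.card_prod, sq] using this

/-- The upper bound on the number of copies. -/
lemma count_bound :
    orderedCopyCount patH (hostA e e') ≤ 2 ^ h * (n ^ 64 * n ^ 64) := by
  classical
  unfold orderedCopyCount
  have key : ∀ rc : {rc : (Fin 66 → Fin n) × (Fin 66 → Fin n) //
      StrictMono rc.1 ∧ StrictMono rc.2 ∧ ∀ i j : Fin 66, hostA e e' (rc.1 i) (rc.2 j) = patH i j},
      ∃ T : Fin (2 ^ h), e (rc.1.1 64) = RowL.tree ⟨h, by omega⟩ T ∧
        e (rc.1.1 65) = RowL.tree ⟨h + 1, by omega⟩ T ∧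
        e' (rc.1.2 64) = ColL.tree ⟨h, by omega⟩ T ∧
        e' (rc.1.2 65) = ColL.tree ⟨h + 1, by omega⟩ T := by
    intro rc
    exact classify (φ := e ∘ rc.1.1) (ψ := e' ∘ rc.1.2) (e.strictMono.comp rc.2.1)
      (e'.strictMono.comp rc.2.2.1) rc.2.2.2
  choose τ hτ using key
  let G : {rc : (Fin 66 → Fin n) × (Fin 66 → Fin n) //
      StrictMono rc.1 ∧ StrictMono rc.2 ∧ ∀ i j : Fin 66, hostA e e' (rc.1 i) (rc.2 j) = patH i j} →
      Fin (2 ^ h) × (Fin 64 → Fin n) × (Fin 64 → Fin n) :=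
    fun rc => (τ rc, rc.1.1 ∘ iota, rc.1.2 ∘ iota)
  have hinj : Function.Injective G := by
    intro a b hab
    have h1 : τ a = τ b := congrArg Prod.fst hab
    have h2 : a.1.1 ∘ iota = b.1.1 ∘ iota := congrArg (fun x => x.2.1) hab
    have h3 : a.1.2 ∘ iota = b.1.2 ∘ iota := congrArg (fun x => x.2.2) hab
    obtain ⟨a1, a2, a3, a4⟩ := hτ a
    obtain ⟨b1, b2, b3, b4⟩ := hτ b
    apply Subtype.ext
    apply Prod.ext
    · funext i
      by_cases hi : i.val < 64
      · have := congrFun h2 ⟨i.val, hi⟩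
        exact this
      · by_cases hi2 : i.val = 64
        · have : i = 64 := Fin.ext hi2
          rw [this]
          apply e.injective
          rw [a1, b1, h1]
        · have : i = 65 := Fin.ext (by have := i.isLt; show i.val = 65; omega)
          rw [this]
          apply e.injective
          rw [a2, b2, h1]
    · funext i
      by_cases hi : i.val < 64
      · have := congrFun h3 ⟨i.val, hi⟩
        exact this
      · by_cases hi2 : i.val = 64
        · have : i = 64 := Fin.ext hi2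
          rw [this]
          apply e'.injective
          rw [a3, b3, h1]
        · have : i = 65 := Fin.ext (by have := i.isLt; show i.val = 65; omega)
          rw [this]
          apply e'.injective
          rw [a4, b4, h1]
  have := Fintype.card_le_of_injective G hinj
  simpa [Fintype.card_prod, Fintype.card_fun] using this

end main

/-- The statement for `h ≥ 2`. -/
theorem main_large (h : ℕ) (hh : 2 ≤ h) :
    ∃ A : Fin ((386 * h + 2) * 2 ^ h) → Fin ((386 * h + 2) * 2 ^ h) → Bool,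
      (∀ B : Fin ((386 * h + 2) * 2 ^ h) → Fin ((386 * h + 2) * 2 ^ h) → Bool,
        orderedCopyCount patH B = 0 →
          ((386 * (h : ℝ) + 2) ^ 2)⁻¹ * (((386 * h + 2) * 2 ^ h : ℕ) : ℝ) ^ 2 ≤
            ((Finset.univ.filter (fun rc : Fin ((386 * h + 2) * 2 ^ h) × Fin ((386 * h + 2) * 2 ^ h) =>
              A rc.1 rc.2 ≠ B rc.1 rc.2)).card : ℝ)) ∧
      (orderedCopyCount patH A : ℝ) /
          (((386 * h + 2) * 2 ^ h : ℕ) : ℝ) ^ 132 ≤
        ((386 * (h : ℝ) + 2) ^ 2)⁻¹ * (2 : ℝ)⁻¹ ^ h := by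
  let e : Fin ((386 * h + 2) * 2 ^ h) ≃o RowL h := (Fintype.orderIsoFinOfCardEq (RowL h) (card_RowL hh))
  let e' : Fin ((386 * h + 2) * 2 ^ h) ≃o ColL h := (Fintype.orderIsoFinOfCardEq (ColL h) (card_ColL hh))
  have hLpos : (0 : ℝ) < 386 * (h : ℝ) + 2 := by positivity
  have hNpos : (0 : ℝ) < 2 ^ h := by positivity
  have hcast : (((386 * h + 2) * 2 ^ h : ℕ) : ℝ) = (386 * (h : ℝ) + 2) * 2 ^ h := by
    push_cast; ring
  refine ⟨hostA e e', ?_, ?_⟩
  · intro B hB
    have := far_bound e e' (by omega) B hB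
    have h2 : (((2 ^ h) ^ 2 : ℕ) : ℝ) ≤ ((Finset.univ.filter (fun rc :
        Fin ((386 * h + 2) * 2 ^ h) × Fin ((386 * h + 2) * 2 ^ h) =>
        hostA e e' rc.1 rc.2 ≠ B rc.1 rc.2)).card : ℝ) := by
      exact_mod_cast this
    refine le_trans (le_of_eq ?_) h2
    rw [hcast]
    push_cast
    field_simp
  · have h1 := count_bound e e'
    have h3 : (orderedCopyCount patH (hostA e e') : ℝ) ≤
        (2 ^ h) * (((386 * h + 2) * 2 ^ h : ℕ) : ℝ) ^ 128 :=
      cast_count_helper h1
    have hn1 : (1 : ℝ) ≤ (((386 * h + 2) * 2 ^ h : ℕ) : ℝ) := by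
      have : 1 ≤ (386 * h + 2) * 2 ^ h := Nat.one_le_iff_ne_zero.mpr (by positivity)
      exact_mod_cast this
    have := real_bound hNpos hLpos hcast hn1 h3
    rw [inv_pow]
    exact this

end Crest.Agent.S0066Lib
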