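import Mathlib
import Crest.Prelude.Def_OrderedMatrix

/-!
The case `h = 1` of S0066: a tiling of the pattern and the binomial bound.
-/

set_option autoImplicit false

namespace Crest.Agent.S0066Lib

open Crest.CombinatoricsR.OrderedMatrix

/-- Number of strictly increasing maps. -/
lemma card_strictMono_le (n : ℕ) :
    Fintype.card {φ : Fin 66 → Fin n // StrictMono φ} ≤ n.choose 66 := by
  classical
  let G : {φ : Fin 66 → Fin n // StrictMono φ} →
      Finset.powersetCard 66 (Finset.univ : Finset (Fin n)) := fun φ =>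
    ⟨Finset.univ.image φ.1, by
      rw [Finset.mem_powersetCard]
      refine ⟨Finset.subset_univ _, ?_⟩
      rw [Finset.card_image_of_injective _ φ.2.injective]
      simp⟩
  have hG : Function.Injective G := by
    intro a b hab
    apply Subtype.ext
    have h1 : Finset.univ.image a.1 = Finset.univ.image b.1 := congrArg Subtype.val hab
    have h2 : Set.range a.1 = Set.range b.1 := by
      have := congrArg (fun s : Finset (Fin n) => (s : Set (Fin n))) h1
      simpa using this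
    exact (StrictMono.range_inj a.2 b.2).mp h2
  have := Fintype.card_le_of_injective G hG
  simpa using this

/-- Any host has at most `binom(n, 66) ^ 2` copies. -/
lemma copies_le (n : ℕ) (H : Fin 66 → Fin 66 → Bool) (A : Fin n → Fin n → Bool) :
    orderedCopyCount H A ≤ n.choose 66 ^ 2 := by
  classical
  unfold orderedCopyCount
  let G : {rc : (Fin 66 → Fin n) × (Fin 66 → Fin n) //
      StrictMono rc.1 ∧ StrictMono rc.2 ∧ ∀ i j : Fin 66, A (rc.1 i) (rc.2 j) = H i j} →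
      {φ : Fin 66 → Fin n // StrictMono φ} × {φ : Fin 66 → Fin n // StrictMono φ} :=
    fun rc => (⟨rc.1.1, rc.2.1⟩, ⟨rc.1.2, rc.2.2.1⟩)
  have hG : Function.Injective G := by
    intro a b hab
    apply Subtype.ext
    apply Prod.ext
    · exact congrArg (fun x => x.1.1) hab
    · exact congrArg (fun x => x.2.1) hab
  have h1 := Fintype.card_le_of_injective G hG
  rw [Fintype.card_prod] at h1
  have h2 := card_strictMono_le n
  calc _ ≤ _ := h1
    _ ≤ n.choose 66 * n.choose 66 := Nat.mul_le_mul h2 h2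
    _ = _ := (sq _).symm

/-- The tiled host. -/
def tile (n : ℕ) (H : Fin 66 → Fin 66 → Bool) : Fin n → Fin n → Bool := fun i j =>
  H ⟨i.val % 66, Nat.mod_lt _ (by norm_num)⟩ ⟨j.val % 66, Nat.mod_lt _ (by norm_num)⟩

/-- Four disjoint copies need four flips. -/
lemma tile_far (n : ℕ) (hn : 264 ≤ n) (H : Fin 66 → Fin 66 → Bool) (B : Fin n → Fin n → Bool)
    (hB : orderedCopyCount H B = 0) :
    4 ≤ (Finset.univ.filter (fun rc : Fin n × Fin n => tile n H rc.1 rc.2 ≠ B rc.1 rc.2)).card := by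
  classical
  let m : Fin 4 → Fin 66 → Fin n := fun b i => ⟨66 * b.val + i.val, by
    have := b.isLt; have := i.isLt; omega⟩
  have hm : ∀ b, StrictMono (m b) := by
    intro b i i' hlt
    have : i.val < i'.val := hlt
    show 66 * b.val + i.val < 66 * b.val + i'.val
    omega
  have key : ∀ b : Fin 4, ∃ p : Fin 66 × Fin 66, tile n H (m b p.1) (m b p.2) ≠ B (m b p.1) (m b p.2) := by
    intro b
    by_contra hcon
    push Not at hcon
    have hpos : 0 < orderedCopyCount H B := by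
      unfold orderedCopyCount
      refine Fintype.card_pos_iff.mpr ⟨⟨(m b, m b), hm b, hm b, ?_⟩⟩
      intro i j
      rw [← hcon (i, j)]
      simp only [tile, m]
      have e : ∀ x : Fin 66, (66 * b.val + x.val) % 66 = x.val := by
        intro x
        have := x.isLt
        omega
      congr 1
      · exact Fin.ext (e i)
      · exact Fin.ext (e j)
    omega
  choose g hg using key
  let G : Fin 4 → Fin n × Fin n := fun b => (m b (g b).1, m b (g b).2)
  have hinj : Function.Injective G := by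
    intro a b hab
    have h1 : (m a (g a).1).val = (m b (g b).1).val := congrArg (fun x => x.1.val) hab
    simp only [m] at h1
    have ha := (g a).1.isLt
    have hb := (g b).1.isLt
    exact Fin.ext (by omega)
  have := Finset.card_le_card_of_injOn G (s := Finset.univ)
    (t := Finset.univ.filter (fun rc : Fin n × Fin n => tile n H rc.1 rc.2 ≠ B rc.1 rc.2))
    (fun b _ => by simpa using hg b) (fun a _ b _ hab => hinj hab)
  simpa using this

/-- `66!` is large. -/
lemma fact66_large : (3628800 : ℕ) ≤ Nat.factorial 66 := by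
  have h7 : Nat.factorial 10 ≤ Nat.factorial 66 := Nat.factorial_le (by norm_num)
  have h8 : Nat.factorial 10 = 3628800 := by norm_num [Nat.factorial]
  rwa [h8] at h7

/-- The real inequality, with the numbers abstracted. -/
lemma tile_count_real_aux (c C F n : ℝ) (hn : 0 < n) (hF : 3628800 ≤ F) (hC0 : 0 ≤ C)
    (hC : C ≤ n ^ 66 / F) (hc : c ≤ C ^ 2) (L : ℝ) (hL : 0 < L) (hL2 : 2 * L ^ 2 ≤ F ^ 2) :
    c / n ^ 132 ≤ (L ^ 2)⁻¹ * (2 : ℝ)⁻¹ := by
  have hFpos : 0 < F := by linarith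
  have h2 : c ≤ (n ^ 66 / F) ^ 2 := hc.trans (pow_le_pow_left₀ hC0 hC 2)
  rw [div_le_iff₀ (by positivity)]
  have e : (L ^ 2)⁻¹ * (2 : ℝ)⁻¹ * n ^ 132 = n ^ 132 / (2 * L ^ 2) := by
    field_simp
  rw [e]
  have e2 : (n ^ 66 / F) ^ 2 = n ^ 132 / F ^ 2 := by
    rw [div_pow, ← pow_mul]
  rw [e2] at h2
  refine h2.trans ?_
  exact div_le_div_of_nonneg_left (by positivity) (by positivity) hL2

/-- The real inequality for `n = 776`. -/
lemma tile_count_real (c : ℕ) (hc : c ≤ Nat.choose 776 66 ^ 2) :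
    (c : ℝ) / (776 : ℝ) ^ 132 ≤ ((388 : ℝ) ^ 2)⁻¹ * (2 : ℝ)⁻¹ := by
  have h1 : ((Nat.choose 776 66 : ℕ) : ℝ) ≤ (776 : ℝ) ^ 66 / (Nat.factorial 66 : ℝ) := by
    have := Nat.choose_le_pow_div (α := ℝ) 66 776
    rwa [Nat.cast_ofNat] at this
  have h3 : (c : ℝ) ≤ ((Nat.choose 776 66 : ℕ) : ℝ) ^ 2 := by
    rw [← Nat.cast_pow]
    exact Nat.cast_le.mpr hc
  have hF : (3628800 : ℝ) ≤ (Nat.factorial 66 : ℝ) := by
    have := fact66_large
    have h5 : ((3628800 : ℕ) : ℝ) ≤ (Nat.factorial 66 : ℝ) := Nat.cast_le.mpr this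
    rwa [Nat.cast_ofNat] at h5
  refine tile_count_real_aux _ _ _ _ (by norm_num) hF (Nat.cast_nonneg _) h1 h3 _ (by norm_num) ?_
  have hF2 : (3628800 : ℝ) ^ 2 ≤ (Nat.factorial 66 : ℝ) ^ 2 :=
    pow_le_pow_left₀ (by norm_num) hF 2
  refine le_trans ?_ hF2
  norm_num

/-- The statement for `h = 1`. -/
theorem main_one (H : Fin 66 → Fin 66 → Bool) :
    ∃ A : Fin ((386 * 1 + 2) * 2 ^ 1) → Fin ((386 * 1 + 2) * 2 ^ 1) → Bool,
      (∀ B : Fin ((386 * 1 + 2) * 2 ^ 1) → Fin ((386 * 1 + 2) * 2 ^ 1) → Bool,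
        orderedCopyCount H B = 0 →
          ((386 * ((1 : ℕ) : ℝ) + 2) ^ 2)⁻¹ * (((386 * 1 + 2) * 2 ^ 1 : ℕ) : ℝ) ^ 2 ≤
            ((Finset.univ.filter (fun rc : Fin ((386 * 1 + 2) * 2 ^ 1) × Fin ((386 * 1 + 2) * 2 ^ 1) =>
              A rc.1 rc.2 ≠ B rc.1 rc.2)).card : ℝ)) ∧
      (orderedCopyCount H A : ℝ) /
          (((386 * 1 + 2) * 2 ^ 1 : ℕ) : ℝ) ^ 132 ≤
        ((386 * ((1 : ℕ) : ℝ) + 2) ^ 2)⁻¹ * (2 : ℝ)⁻¹ ^ 1 := by
  refine ⟨tile ((386 * 1 + 2) * 2 ^ 1) H, ?_, ?_⟩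
  · intro B hB
    have h1 := tile_far ((386 * 1 + 2) * 2 ^ 1) (by norm_num) H B hB
    have h2 : (4 : ℝ) ≤ ((Finset.univ.filter (fun rc : Fin ((386 * 1 + 2) * 2 ^ 1) × Fin ((386 * 1 + 2) * 2 ^ 1) =>
        tile ((386 * 1 + 2) * 2 ^ 1) H rc.1 rc.2 ≠ B rc.1 rc.2)).card : ℝ) := by
      exact_mod_cast h1
    refine le_trans (le_of_eq ?_) h2
    norm_num
  · have e0 : ((386 * 1 + 2) * 2 ^ 1 : ℕ) = 776 := by norm_num
    have h1 : orderedCopyCount H (tile ((386 * 1 + 2) * 2 ^ 1) H) ≤ Nat.choose 776 66 ^ 2 := by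
      have := copies_le ((386 * 1 + 2) * 2 ^ 1) H (tile ((386 * 1 + 2) * 2 ^ 1) H)
      calc _ ≤ Nat.choose ((386 * 1 + 2) * 2 ^ 1) 66 ^ 2 := this
        _ = Nat.choose 776 66 ^ 2 := by rw [e0]
    have h2 := tile_count_real _ h1
    have e1 : (((386 * 1 + 2) * 2 ^ 1 : ℕ) : ℝ) = 776 := by norm_num
    have e2 : (386 * ((1 : ℕ) : ℝ) + 2) = 388 := by norm_num
    rw [e1, e2, pow_one (2 : ℝ)⁻¹]
    exact h2

end Crest.Agent.S0066Lib
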