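import Mathlib

/-!
Arithmetic of the in-order layout used for S0066.

A tree line is `(d, T)` with level `d ≤ h + 1` and index `T < 2 ^ h`.  Its node is the prefix
`pre h d T = (2 T + 1) / 2 ^ (h + 1 - d)` and its in-order position `pos h d T`.
-/

set_option autoImplicit false

namespace Crest.Agent.S0066Lib

/-- Prefix of length `m` of the path `2 T + 1`. -/
def pre (h m T : ℕ) : ℕ := (2 * T + 1) / 2 ^ (h + 1 - m)

/-- In-order position of the node of the line `(d, T)`. -/
def pos (h d T : ℕ) : ℕ := (2 * pre h d T + 1) * 2 ^ (h + 1 - d)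

/-- The tree table: different levels and the same prefix at the shallower level. -/
def treeM (h d T e S : ℕ) : Bool :=
  decide (d ≠ e) && decide (pre h (min d e) T = pre h (min d e) S)

lemma treeM_comm (h d T e S : ℕ) : treeM h d T e S = treeM h e S d T := by
  unfold treeM
  rw [min_comm]
  by_cases h1 : d = e
  · subst h1; simp
  · have h2 : e ≠ d := fun h => h1 h.symm
    simp [h1, h2, eq_comm]

lemma treeM_eq_true {h d T e S : ℕ} :
    treeM h d T e S = true ↔ d ≠ e ∧ pre h (min d e) T = pre h (min d e) S := by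
  simp [treeM]

lemma pre_coarse (h m m' T : ℕ) (hm : m ≤ m') (hm' : m' ≤ h + 1) :
    pre h m T = pre h m' T / 2 ^ (m' - m) := by
  unfold pre
  rw [Nat.div_div_eq_div_mul, ← pow_add]
  congr 2
  omega

lemma pre_succ (h m T : ℕ) (hm : m < h + 1) : pre h m T = pre h (m + 1) T / 2 := by
  have := pre_coarse h m (m + 1) T (by omega) (by omega)
  simpa using this

lemma pre_eq_of_coarse {h m m' T S : ℕ} (hm : m ≤ m') (hm' : m' ≤ h + 1)
    (he : pre h m' T = pre h m' S) : pre h m T = pre h m S := by
  rw [pre_coarse h m m' T hm hm', pre_coarse h m m' S hm hm', he]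

lemma pre_zero {h T : ℕ} (hT : T < 2 ^ h) : pre h 0 T = 0 := by
  unfold pre
  apply Nat.div_eq_of_lt
  simp only [Nat.sub_zero]
  rw [pow_succ]
  omega

lemma pre_top (h T : ℕ) : pre h (h + 1) T = 2 * T + 1 := by
  simp [pre]

lemma pre_last (h T : ℕ) : pre h h T = T := by
  unfold pre
  have : h + 1 - h = 1 := by omega
  rw [this]
  omega

lemma pos_top (h T : ℕ) : pos h (h + 1) T = 4 * T + 3 := by
  unfold pos
  rw [pre_top]
  simp
  omega

lemma pos_last (h T : ℕ) : pos h h T = 4 * T + 2 := by
  unfold pos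
  rw [pre_last]
  have : h + 1 - h = 1 := by omega
  rw [this]
  omega

/-- Dividing a deeper position by the scale of level `t` gives the prefix of length `t + 1`. -/
lemma pos_div (h t d T : ℕ) (htd : t < d) (hd : d ≤ h + 1) :
    pos h d T / 2 ^ (h + 1 - t) = pre h (t + 1) T := by
  unfold pos
  have e1 : h + 1 - t = (h + 1 - d) + (d - t) := by omega
  rw [e1, pow_add, mul_comm (2 ^ (h + 1 - d)) (2 ^ (d - t))]
  rw [Nat.mul_div_mul_right _ _ (by positivity)]
  have e2 : d - t = (d - (t + 1)) + 1 := by omega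
  rw [e2, pow_succ', ← Nat.div_div_eq_div_mul]
  have e3 : pre h (t + 1) T = pre h d T / 2 ^ (d - (t + 1)) :=
    pre_coarse h (t + 1) d T (by omega) hd
  rw [e3]
  congr 1
  omega

lemma pos_ne_aux (h t d T T' : ℕ) (htd : t < d) (hd : d ≤ h + 1) :
    pos h d T ≠ pos h t T' := by
  unfold pos
  intro he
  have e1 : h + 1 - t = (h + 1 - d) + (d - (t + 1)) + 1 := by omega
  rw [e1, pow_succ, pow_add] at he
  have hA : 0 < 2 ^ (h + 1 - d) := by positivity
  set A := 2 ^ (h + 1 - d) with hAdef
  set B := 2 ^ (d - (t + 1)) with hBdef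
  have : (2 * pre h d T + 1) * A = (2 * ((2 * pre h t T' + 1) * B)) * A := by
    rw [he]; ring
  have := Nat.eq_of_mul_eq_mul_right hA this
  omega

lemma pos_ne (h d t T T' : ℕ) (hne : d ≠ t) (hd : d ≤ h + 1) (ht : t ≤ h + 1) :
    pos h d T ≠ pos h t T' := by
  rcases lt_or_gt_of_ne hne with hlt | hlt
  · exact (pos_ne_aux h d t T' T hlt ht).symm
  · exact pos_ne_aux h t d T T' hlt hd

lemma pos_lt_iff (h t d T T' : ℕ) (htd : t < d) (hd : d ≤ h + 1) :
    pos h d T < pos h t T' ↔ pre h (t + 1) T ≤ 2 * pre h t T' := by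
  have hW : 0 < 2 ^ (h + 1 - t) := by positivity
  have e := pos_div h t d T htd hd
  have : pos h d T < (2 * pre h t T' + 1) * 2 ^ (h + 1 - t) ↔
      pos h d T / 2 ^ (h + 1 - t) < 2 * pre h t T' + 1 :=
    (Nat.div_lt_iff_lt_mul hW).symm
  rw [e] at this
  have h2 : pos h t T' = (2 * pre h t T' + 1) * 2 ^ (h + 1 - t) := rfl
  rw [h2, this]
  omega

lemma pos_gt_iff (h t d T T' : ℕ) (htd : t < d) (hd : d ≤ h + 1) :
    pos h t T' < pos h d T ↔ 2 * pre h t T' + 1 ≤ pre h (t + 1) T := by
  have hne := pos_ne_aux h t d T T' htd hd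
  have := pos_lt_iff h t d T T' htd hd
  constructor
  · intro hlt
    by_contra hcon
    have h3 : pre h (t + 1) T ≤ 2 * pre h t T' := by omega
    have := this.mpr h3
    omega
  · intro hle
    by_contra hcon
    have h3 : pos h d T < pos h t T' := by omega
    have := this.mp h3
    omega

/-- The interval argument for the frames with the witness after the deep lines. -/
lemma left_witness {h t d e T1 T2 T3 T4 : ℕ} (htd : t < d) (hd : d ≤ h + 1) (hte : t < e)
    (he : e ≤ h + 1)
    (h14 : pre h t T1 = pre h t T4) (h23 : pre h t T2 = pre h t T3)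
    (hy : pos h d T1 < pos h t T2) (hx : pos h e T3 < pos h t T4) :
    pre h (t + 1) T1 = pre h (t + 1) T3 := by
  have a1 := (pos_lt_iff h t d T1 T2 htd hd).mp hy
  have a2 := (pos_lt_iff h t e T3 T4 hte he).mp hx
  have b1 := pre_succ h t T1 (by omega)
  have b3 := pre_succ h t T3 (by omega)
  omega

/-- The interval argument for the frames with the witness before the deep lines. -/
lemma right_witness {h t d e T1 T2 T3 T4 : ℕ} (htd : t < d) (hd : d ≤ h + 1) (hte : t < e)
    (he : e ≤ h + 1)
    (h14 : pre h t T1 = pre h t T4) (h23 : pre h t T2 = pre h t T3)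
    (hy : pos h t T1 < pos h d T2) (hx : pos h t T3 < pos h e T4) :
    pre h (t + 1) T2 = pre h (t + 1) T4 := by
  have a1 := (pos_gt_iff h t d T2 T1 htd hd).mp hy
  have a2 := (pos_gt_iff h t e T4 T3 hte he).mp hx
  have b2 := pre_succ h t T2 (by omega)
  have b4 := pre_succ h t T4 (by omega)
  omega

/-- Two tree rows cannot alternate `10, 01, 10, 01` on four tree columns in weakly increasing
position. -/
theorem tree_alternate {h d1 T1 d2 T2 e1 S1 e2 S2 e3 S3 e4 S4 : ℕ}
    (hd1 : d1 ≤ h + 1) (hd2 : d2 ≤ h + 1)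
    (he1 : e1 ≤ h + 1) (he2 : e2 ≤ h + 1) (he3 : e3 ≤ h + 1) (he4 : e4 ≤ h + 1)
    (hT1 : T1 < 2 ^ h) (hT2 : T2 < 2 ^ h)
    (h12 : pos h e1 S1 ≤ pos h e2 S2) (h23 : pos h e2 S2 ≤ pos h e3 S3)
    (h34 : pos h e3 S3 ≤ pos h e4 S4)
    (c11 : treeM h d1 T1 e1 S1 = true) (c21 : treeM h d2 T2 e1 S1 = false)
    (c12 : treeM h d1 T1 e2 S2 = false) (c22 : treeM h d2 T2 e2 S2 = true)
    (c13 : treeM h d1 T1 e3 S3 = true) (c23 : treeM h d2 T2 e3 S3 = false)
    (c14 : treeM h d1 T1 e4 S4 = false) (c24 : treeM h d2 T2 e4 S4 = true) : False := by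
  classical
  -- first level where the two rows' prefixes differ
  have key_coarse : ∀ {m d T e S : ℕ}, m ≤ d → m ≤ e → d ≤ h + 1 → e ≤ h + 1 →
      treeM h d T e S = true → pre h m T = pre h m S := by
    intro m d T e S hmd hme hd he hc
    obtain ⟨_, h2⟩ := treeM_eq_true.mp hc
    exact pre_eq_of_coarse (m' := min d e) (le_min hmd hme) ((min_le_left _ _).trans hd) h2
  by_cases hP : pre h (min d1 d2) T1 = pre h (min d1 d2) T2
  · -- rows are comparable (or equal)
    rcases lt_trichotomy d1 d2 with hlt | heq | hgt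
    · -- `d1 < d2`: columns of type `01` lie on the node of the first row
      have hmin : min d1 d2 = d1 := min_eq_left hlt.le
      rw [hmin] at hP
      have type01 : ∀ {e S : ℕ}, e ≤ h + 1 → treeM h d1 T1 e S = false →
          treeM h d2 T2 e S = true → e = d1 ∧ pre h d1 S = pre h d1 T2 := by
        intro e S he hf ht
        by_cases hed : e = d1
        · subst hed
          refine ⟨rfl, ?_⟩
          exact (key_coarse (m := e) hlt.le le_rfl hd2 he ht).symm
        · exfalso
          have hm : min d1 e ≤ d1 := min_le_left _ _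
          have e1 : pre h (min d1 e) T1 = pre h (min d1 e) T2 :=
            pre_eq_of_coarse hm hd1 hP
          have e2 : pre h (min d1 e) T2 = pre h (min d1 e) S :=
            key_coarse (le_of_lt (lt_of_le_of_lt hm hlt)) (min_le_right _ _) hd2 he ht
          have : treeM h d1 T1 e S = true :=
            treeM_eq_true.mpr ⟨fun h => hed h.symm, e1.trans e2⟩
          rw [this] at hf
          exact Bool.noConfusion hf
      obtain ⟨x1, x2⟩ := type01 he2 c12 c22
      obtain ⟨y1, y2⟩ := type01 he4 c14 c24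
      have hp24 : pos h e2 S2 = pos h e4 S4 := by
        unfold pos
        rw [x1, y1, x2, y2]
      have hp3 : pos h e3 S3 = pos h e2 S2 := by omega
      by_cases he32 : e3 = e2
      · have := (treeM_eq_true.mp c13).1
        exact this (x1.symm.trans he32.symm)
      · exact pos_ne h e3 e2 S3 S2 he32 he3 he2 hp3
    · -- same level, same prefix: identical rows
      subst heq
      have hmin : min d1 d1 = d1 := min_self _
      rw [hmin] at hP
      exfalso
      have hc := treeM_eq_true.mp c11
      have : treeM h d1 T2 e1 S1 = true := by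
        refine treeM_eq_true.mpr ⟨hc.1, ?_⟩
        have e1' : pre h (min d1 e1) T1 = pre h (min d1 e1) T2 :=
          pre_eq_of_coarse (min_le_left _ _) hd1 hP
        exact e1'.symm.trans hc.2
      rw [this] at c21
      exact Bool.noConfusion c21
    · -- `d2 < d1`: columns of type `10` lie on the node of the second row
      have hmin : min d1 d2 = d2 := min_eq_right hgt.le
      rw [hmin] at hP
      have type10 : ∀ {e S : ℕ}, e ≤ h + 1 → treeM h d2 T2 e S = false →
          treeM h d1 T1 e S = true → e = d2 ∧ pre h d2 S = pre h d2 T1 := by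
        intro e S he hf ht
        by_cases hed : e = d2
        · subst hed
          refine ⟨rfl, ?_⟩
          exact (key_coarse (m := e) hgt.le le_rfl hd1 he ht).symm
        · exfalso
          have hm : min d2 e ≤ d2 := min_le_left _ _
          have e1 : pre h (min d2 e) T2 = pre h (min d2 e) T1 :=
            (pre_eq_of_coarse hm hd2 hP).symm
          have e2 : pre h (min d2 e) T1 = pre h (min d2 e) S :=
            key_coarse (le_of_lt (lt_of_le_of_lt hm hgt)) (min_le_right _ _) hd1 he ht
          have : treeM h d2 T2 e S = true :=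
            treeM_eq_true.mpr ⟨fun h => hed h.symm, e1.trans e2⟩
          rw [this] at hf
          exact Bool.noConfusion hf
      obtain ⟨x1, x2⟩ := type10 he1 c21 c11
      obtain ⟨y1, y2⟩ := type10 he3 c23 c13
      have hp13 : pos h e1 S1 = pos h e3 S3 := by
        unfold pos
        rw [x1, y1, x2, y2]
      have hp2 : pos h e2 S2 = pos h e1 S1 := by omega
      by_cases he21 : e2 = e1
      · have := (treeM_eq_true.mp c22).1
        exact this (x1.symm.trans he21.symm)
      · exact pos_ne h e2 e1 S2 S1 he21 he2 he1 hp2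
  · -- the prefixes differ: take the first level where they do
    have hex : ∃ k, pre h k T1 ≠ pre h k T2 ∧ k ≤ min d1 d2 := ⟨_, hP, le_rfl⟩
    obtain ⟨k, ⟨hk1, hk2⟩, hkmin⟩ : ∃ k, (pre h k T1 ≠ pre h k T2 ∧ k ≤ min d1 d2) ∧
        ∀ m, m < k → ¬ (pre h m T1 ≠ pre h m T2 ∧ m ≤ min d1 d2) :=
      ⟨Nat.find hex, Nat.find_spec hex, fun m hm => Nat.find_min hex hm⟩
    have hmin : ∀ m, m < k → pre h m T1 = pre h m T2 := by
      intro m hm
      by_contra hcon
      exact hkmin m hm ⟨hcon, by omega⟩
    have hk0 : k ≠ 0 := by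
      intro h0
      rw [h0, pre_zero hT1, pre_zero hT2] at hk1
      exact hk1 rfl
    obtain ⟨t, rfl⟩ : ∃ t, k = t + 1 := ⟨k - 1, by omega⟩
    have hd1k : t + 1 ≤ d1 := hk2.trans (min_le_left _ _)
    have hd2k : t + 1 ≤ d2 := hk2.trans (min_le_right _ _)
    -- columns distinguishing the rows are deep enough
    have deep : ∀ {d d' : ℕ} {T T' e S : ℕ}, t + 1 ≤ d → t + 1 ≤ d' → d ≤ h + 1 → d' ≤ h + 1 →
        e ≤ h + 1 → (∀ m, m < t + 1 → pre h m T = pre h m T') →
        treeM h d T e S = true → treeM h d' T' e S = false →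
        t < e ∧ pre h (t + 1) T = pre h (t + 1) S := by
      intro d d' T T' e S hd hd' hdd hdd' he hm ht hf
      have hte : t < e := by
        by_contra hcon
        have het : e ≤ t := by omega
        have hmin1 : min d e = e := min_eq_right (by omega)
        have hmin2 : min d' e = e := min_eq_right (by omega)
        have ⟨h1, h2⟩ := treeM_eq_true.mp ht
        rw [hmin1] at h2
        have : treeM h d' T' e S = true := by
          refine treeM_eq_true.mpr ⟨by omega, ?_⟩
          rw [hmin2]
          exact (hm e (by omega)).symm.trans h2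
        rw [this] at hf
        exact Bool.noConfusion hf
      refine ⟨hte, ?_⟩
      exact key_coarse (m := t + 1) hd (by omega) hdd he ht
    have hm' : ∀ m, m < t + 1 → pre h m T2 = pre h m T1 := fun m hm => (hmin m hm).symm
    obtain ⟨a1, b1⟩ := deep hd1k hd2k hd1 hd2 he1 hmin c11 c21
    obtain ⟨a2, b2⟩ := deep hd2k hd1k hd2 hd1 he2 hm' c22 c12
    obtain ⟨a3, b3⟩ := deep hd1k hd2k hd1 hd2 he3 hmin c13 c23
    have f1 := pos_div h t e1 S1 a1 he1
    have f2 := pos_div h t e2 S2 a2 he2
    have f3 := pos_div h t e3 S3 a3 he3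
    have m12 : pos h e1 S1 / 2 ^ (h + 1 - t) ≤ pos h e2 S2 / 2 ^ (h + 1 - t) :=
      Nat.div_le_div_right h12
    have m23 : pos h e2 S2 / 2 ^ (h + 1 - t) ≤ pos h e3 S3 / 2 ^ (h + 1 - t) :=
      Nat.div_le_div_right h23
    rw [f1, f2] at m12
    rw [f2, f3] at m23
    apply hk1
    omega

/-- Frames `W1`, `W3`: the deep cell is a one. -/
lemma left_contra {h t d e T1 T2 T3 T4 : ℕ} (htd : t < d) (hd : d ≤ h + 1) (hte : t < e)
    (he : e ≤ h + 1) (hne : d ≠ e) (hmin : min d e = t + 1)
    (c14 : treeM h d T1 t T4 = true) (c23 : treeM h t T2 e T3 = true)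
    (hy : pos h d T1 < pos h t T2) (hx : pos h e T3 < pos h t T4) :
    treeM h d T1 e T3 = true := by
  have e1 := (treeM_eq_true.mp c14).2
  have e2 := (treeM_eq_true.mp c23).2
  rw [min_eq_right htd.le] at e1
  rw [min_eq_left hte.le] at e2
  refine treeM_eq_true.mpr ⟨hne, ?_⟩
  rw [hmin]
  exact left_witness htd hd hte he e1 e2 hy hx

/-- Frames `W2`, `W4`: the deep cell is a one. -/
lemma right_contra {h t d e T1 T2 T3 T4 : ℕ} (htd : t < d) (hd : d ≤ h + 1) (hte : t < e)
    (he : e ≤ h + 1) (hne : d ≠ e) (hmin : min d e = t + 1)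
    (c14 : treeM h t T1 e T4 = true) (c23 : treeM h d T2 t T3 = true)
    (hy : pos h t T1 < pos h d T2) (hx : pos h t T3 < pos h e T4) :
    treeM h d T2 e T4 = true := by
  have e1 := (treeM_eq_true.mp c14).2
  have e2 := (treeM_eq_true.mp c23).2
  rw [min_eq_left hte.le] at e1
  rw [min_eq_right htd.le] at e2
  refine treeM_eq_true.mpr ⟨hne, ?_⟩
  rw [hmin]
  exact right_witness htd hd hte he e1 e2 hy hx

end Crest.Agent.S0066Lib
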